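import Vale.Agent.Lib.P219.Frames

/-! Integration by parts for the first field, and the pointwise arithmetic-geometric inequality. -/

open MeasureTheory Set

namespace Vale.Agent.Lib.P219

variable {n : ℕ}

/-- Integration by parts along `e_0` against a function of the first coordinate. -/
lemma integral_first_field {a : Fin (n + 1) → Fin (n + 1) → (Fin (n + 1) → ℝ) → ℝ}
    (ha : IsMonotoneFrame a) {g : (Fin (n + 1) → ℝ) → ℝ} (hg : ContDiff ℝ 1 g)
    (hgc : HasCompactSupport g) {u u' : ℝ → ℝ} (hu : ∀ t, HasDerivAt u (u' t) t)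
    (hu' : Continuous u') :
    ∫ x, u (x 0) * fieldDeriv a 0 g x = - ∫ x, g x * (u' (x 0) + u (x 0) * fieldDiv a 0 x) := by
  have hucont : Continuous u := continuous_iff_continuousAt.2 fun t => (hu t).continuousAt
  have hu0 : Continuous (fun x : Fin (n + 1) → ℝ => u (x 0)) := hucont.comp (continuous_apply 0)
  have hu'0 : Continuous (fun x : Fin (n + 1) → ℝ => u' (x 0)) := hu'.comp (continuous_apply 0)
  have hgcont : Continuous g := hg.continuous
  -- derivative of the product
  have hFderiv : ∀ (j : Fin (n + 1)) (x : Fin (n + 1) → ℝ),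
      HasFDerivAt (fun z : Fin (n + 1) → ℝ => u (z 0) * a 0 j z)
        (u (x 0) • fderiv ℝ (a 0 j) x +
          a 0 j x • (u' (x 0) • (ContinuousLinearMap.proj (0 : Fin (n + 1)) :
            (Fin (n + 1) → ℝ) →L[ℝ] ℝ))) x := by
    intro j x
    have h1 : HasFDerivAt (fun z : Fin (n + 1) → ℝ => u (z 0))
        (u' (x 0) • (ContinuousLinearMap.proj (0 : Fin (n + 1)) :
          (Fin (n + 1) → ℝ) →L[ℝ] ℝ)) x :=
      (hu (x 0)).comp_hasFDerivAt x (hasFDerivAt_apply (0 : Fin (n + 1)) x)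
    have h2 : HasFDerivAt (a 0 j) (fderiv ℝ (a 0 j) x) x :=
      ((ha.smooth 0 j).differentiable (by norm_num) x).hasFDerivAt
    exact h1.mul h2
  have hFpd : ∀ (j : Fin (n + 1)) (x : Fin (n + 1) → ℝ),
      fderiv ℝ (fun z : Fin (n + 1) → ℝ => u (z 0) * a 0 j z) x (Pi.single j 1) =
        u (x 0) * pd (a 0 j) j x + a 0 j x * (u' (x 0) * (Pi.single j 1 : Fin (n + 1) → ℝ) 0) := by
    intro j x
    rw [(hFderiv j x).fderiv]
    simp [pd]
  have hFcont : ∀ j, Continuous (fun x => fderiv ℝ (fun z : Fin (n + 1) → ℝ => u (z 0) * a 0 j z) x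
      (Pi.single j 1)) := by
    intro j
    have : (fun x => fderiv ℝ (fun z : Fin (n + 1) → ℝ => u (z 0) * a 0 j z) x (Pi.single j 1)) =
        fun x => u (x 0) * pd (a 0 j) j x +
          a 0 j x * (u' (x 0) * (Pi.single j 1 : Fin (n + 1) → ℝ) 0) := funext (hFpd j)
    rw [this]
    exact (hu0.mul (continuous_pd (ha.smooth 0 j) j)).add
      ((ha.smooth 0 j).continuous.mul (hu'0.mul continuous_const))
  have hstep : ∀ j : Fin (n + 1), ∫ x, (u (x 0) * a 0 j x) * pd g j x =
      - ∫ x, (u (x 0) * pd (a 0 j) j x + a 0 j x * (u' (x 0) * (Pi.single j 1 : Fin (n + 1) → ℝ) 0))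
        * g x := by
    intro j
    have key := integral_mul_fderiv_eq_neg_fderiv_mul_of_integrable
      (μ := (volume : Measure (Fin (n + 1) → ℝ)))
      (f := fun z : Fin (n + 1) → ℝ => u (z 0) * a 0 j z) (g := g)
      (v := (Pi.single j 1 : Fin (n + 1) → ℝ))
      ?_ ?_ ?_ ?_ ?_
    · simp only [hFpd] at key
      exact key
    · exact ((hFcont j).mul hgcont).integrable_of_hasCompactSupport hgc.mul_left
    · have h2 : HasCompactSupport (pd g j) := by
        refine HasCompactSupport.intro hgc (fun x hx => pd_eq_zero_of_notMem hx j)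
      exact ((hu0.mul (ha.smooth 0 j).continuous).mul (continuous_pd hg j)).integrable_of_hasCompactSupport
        h2.mul_left
    · exact ((hu0.mul (ha.smooth 0 j).continuous).mul hgcont).integrable_of_hasCompactSupport
        hgc.mul_left
    · intro x _
      exact (hFderiv j x).differentiableAt
    · intro x _
      exact (hg.differentiable (by norm_num)) x
  -- sum over `j`
  have hint : ∀ j : Fin (n + 1), Integrable (fun x => (u (x 0) * a 0 j x) * pd g j x) := by
    intro j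
    have h2 : HasCompactSupport (pd g j) := by
      refine HasCompactSupport.intro hgc (fun x hx => pd_eq_zero_of_notMem hx j)
    exact ((hu0.mul (ha.smooth 0 j).continuous).mul (continuous_pd hg j)).integrable_of_hasCompactSupport
      h2.mul_left
  have hint2 : ∀ j : Fin (n + 1), Integrable (fun x => (u (x 0) * pd (a 0 j) j x +
      a 0 j x * (u' (x 0) * (Pi.single j 1 : Fin (n + 1) → ℝ) 0)) * g x) := by
    intro j
    refine Continuous.integrable_of_hasCompactSupport ?_ hgc.mul_left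
    exact ((hu0.mul (continuous_pd (ha.smooth 0 j) j)).add
      ((ha.smooth 0 j).continuous.mul (hu'0.mul continuous_const))).mul hgcont
  calc ∫ x, u (x 0) * fieldDeriv a 0 g x
      = ∫ x, ∑ j, (u (x 0) * a 0 j x) * pd g j x := by
        refine integral_congr_ae (Filter.Eventually.of_forall fun x => ?_)
        simp only [fieldDeriv, Finset.mul_sum, mul_assoc]
    _ = ∑ j, ∫ x, (u (x 0) * a 0 j x) * pd g j x :=
        integral_finsetSum _ (fun j _ => hint j)
    _ = ∑ j, - ∫ x, (u (x 0) * pd (a 0 j) j x +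
          a 0 j x * (u' (x 0) * (Pi.single j 1 : Fin (n + 1) → ℝ) 0)) * g x :=
        Finset.sum_congr rfl (fun j _ => hstep j)
    _ = - ∑ j, ∫ x, (u (x 0) * pd (a 0 j) j x +
          a 0 j x * (u' (x 0) * (Pi.single j 1 : Fin (n + 1) → ℝ) 0)) * g x := by
        rw [Finset.sum_neg_distrib]
    _ = - ∫ x, ∑ j, (u (x 0) * pd (a 0 j) j x +
          a 0 j x * (u' (x 0) * (Pi.single j 1 : Fin (n + 1) → ℝ) 0)) * g x := by
        rw [integral_finsetSum _ (fun j _ => hint2 j)]
    _ = - ∫ x, g x * (u' (x 0) + u (x 0) * fieldDiv a 0 x) := by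
        congr 1
        refine integral_congr_ae (Filter.Eventually.of_forall fun x => ?_)
        simp only []
        rw [← Finset.sum_mul, mul_comm]
        congr 1
        rw [Finset.sum_add_distrib, ← Finset.mul_sum, add_comm]
        congr 1
        rw [Fin.sum_univ_succ]
        simp [ha.diag, Fin.succ_ne_zero]

/-- The arithmetic-geometric mean inequality used at each point. -/
lemma amgm_aux (k : ℕ) {p q : ℝ} (hp : 0 ≤ p) (hq : 0 ≤ q) :
    ((k : ℝ) + 1) * (p * q ^ k) ^ (1 / ((k : ℝ) + 1)) ≤ p + k * q := by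
  have hk : (0 : ℝ) < (k : ℝ) + 1 := by positivity
  have hw : 1 / ((k : ℝ) + 1) + (k : ℝ) / ((k : ℝ) + 1) = 1 := by field_simp; ring
  have h := Real.geom_mean_le_arith_mean2_weighted (w₁ := 1 / ((k : ℝ) + 1))
    (w₂ := (k : ℝ) / ((k : ℝ) + 1)) (by positivity) (by positivity) hp hq hw
  have h2 : (p * q ^ k) ^ (1 / ((k : ℝ) + 1)) =
      p ^ (1 / ((k : ℝ) + 1)) * q ^ ((k : ℝ) / ((k : ℝ) + 1)) := by
    rw [Real.mul_rpow hp (pow_nonneg hq k), ← Real.rpow_natCast q k, ← Real.rpow_mul hq]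
    congr 2
    field_simp
  rw [h2]
  calc ((k : ℝ) + 1) * (p ^ (1 / ((k : ℝ) + 1)) * q ^ ((k : ℝ) / ((k : ℝ) + 1)))
      ≤ ((k : ℝ) + 1) * (1 / ((k : ℝ) + 1) * p + (k : ℝ) / ((k : ℝ) + 1) * q) := by
        exact mul_le_mul_of_nonneg_left h hk.le
    _ = p + k * q := by field_simp

/-- The pointwise inequality in the transport step. -/
lemma pointwise_ineq {k : ℕ} (hk : 1 ≤ k) {m ω R S w : ℝ} (hm : 0 < m) (hω : 0 < ω) (hR : 0 < R)
    (hS : 0 < S) (hw : 0 ≤ w) :
    ((k : ℝ) + 1) * S * w ^ (1 / ((k : ℝ) + 1)) ≤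
      m * S ^ (k + 1) / (ω * R ^ k) +
        k * (R * ω ^ (1 / (k : ℝ)) * m ^ (-(1 / (k : ℝ))) * w ^ (1 / (k : ℝ))) := by
  have hk0 : (k : ℝ) ≠ 0 := by
    have : 0 < k := hk
    positivity
  set p := m * S ^ (k + 1) / (ω * R ^ k) with hp
  set q := R * ω ^ (1 / (k : ℝ)) * m ^ (-(1 / (k : ℝ))) * w ^ (1 / (k : ℝ)) with hq
  have hp0 : 0 ≤ p := by positivity
  have hq0 : 0 ≤ q := by positivity
  have hqk : q ^ k = R ^ k * ω * m⁻¹ * w := by
    rw [hq, mul_pow, mul_pow, mul_pow]
    have h1 : (ω ^ (1 / (k : ℝ))) ^ k = ω := by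
      rw [one_div]; exact Real.rpow_inv_natCast_pow hω.le (by omega)
    have h2 : (w ^ (1 / (k : ℝ))) ^ k = w := by
      rw [one_div]; exact Real.rpow_inv_natCast_pow hw (by omega)
    have h3 : (m ^ (-(1 / (k : ℝ)))) ^ k = m⁻¹ := by
      rw [← Real.rpow_natCast, ← Real.rpow_mul hm.le]
      have : -(1 / (k : ℝ)) * (k : ℝ) = -1 := by field_simp
      rw [this, Real.rpow_neg_one]
    rw [h1, h2, h3]
  have hprod : p * q ^ k = S ^ (k + 1) * w := by
    rw [hqk, hp]
    field_simp
  have h := amgm_aux k hp0 hq0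
  rw [hprod] at h
  have h2 : (S ^ (k + 1) * w) ^ (1 / ((k : ℝ) + 1)) = S * w ^ (1 / ((k : ℝ) + 1)) := by
    rw [Real.mul_rpow (pow_nonneg hS.le _) hw]
    congr 1
    rw [one_div]
    have := Real.pow_rpow_inv_natCast hS.le (n := k + 1) (by omega)
    simpa using this
  rw [h2] at h
  calc ((k : ℝ) + 1) * S * w ^ (1 / ((k : ℝ) + 1))
      = ((k : ℝ) + 1) * (S * w ^ (1 / ((k : ℝ) + 1))) := by ring
    _ ≤ p + k * q := h

end Vale.Agent.Lib.P219
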