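import Mathlib

/-!
Definitions for the P219 hand-ins: metrics on `ℝⁿ` given by a unit triangular orthonormal frame,
and the model isoperimetric profile of the space forms.
-/

open MeasureTheory Set

namespace Vale.Agent.Lib.P219

variable {n : ℕ}

/-- The coordinate derivative `∂_j f (x)`. -/
noncomputable def pd (f : (Fin n → ℝ) → ℝ) (j : Fin n) (x : Fin n → ℝ) : ℝ :=
  fderiv ℝ f x (Pi.single j 1)

/-- The derivative `e_i f (x) = ∑_j a i j x * ∂_j f (x)` of `f` along the vector field
`e_i = ∑_j a i j ∂_j`. -/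
noncomputable def fieldDeriv (a : Fin n → Fin n → (Fin n → ℝ) → ℝ) (i : Fin n)
    (f : (Fin n → ℝ) → ℝ) (x : Fin n → ℝ) : ℝ :=
  ∑ j, a i j x * pd f j x

/-- The norm `|∇f|_g (x) = (∑_i (e_i f (x))²)^(1/2)` of the gradient of `f` for the Riemannian metric
`g` on `ℝⁿ` in which the vector fields `e_i` are orthonormal. -/
noncomputable def gradNorm (a : Fin n → Fin n → (Fin n → ℝ) → ℝ) (f : (Fin n → ℝ) → ℝ)
    (x : Fin n → ℝ) : ℝ :=
  Real.sqrt (∑ i, fieldDeriv a i f x ^ 2)

/-- The divergence `∑_j ∂_j (a i j)` of the vector field `e_i` for Lebesgue measure. -/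
noncomputable def fieldDiv (a : Fin n → Fin n → (Fin n → ℝ) → ℝ) (i : Fin n)
    (x : Fin n → ℝ) : ℝ :=
  ∑ j, pd (a i j) j x

/-- `a` is a unit upper triangular `C¹` matrix of functions: `e_i = ∂_i + ∑_{j > i} a i j ∂_j`;
so the Riemannian metric with orthonormal frame `(e_i)` has Lebesgue measure as its volume.
Moreover the divergence of `e_i` depends only on `x_0, …, x_i` and is nondecreasing in `x_i`
(for instance it is constant). -/
structure IsMonotoneFrame (a : Fin n → Fin n → (Fin n → ℝ) → ℝ) : Prop where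
  smooth : ∀ i j, ContDiff ℝ 1 (a i j)
  diag : ∀ i x, a i i x = 1
  lower : ∀ i j x, j < i → a i j x = 0
  mono : ∀ i x y, (∀ k, k < i → x k = y k) → x i ≤ y i → fieldDiv a i x ≤ fieldDiv a i y

/-- The volume `ω_n` of the Euclidean unit ball in `ℝⁿ`. -/
noncomputable def omega (n : ℕ) : ℝ :=
  (volume (Metric.ball (0 : EuclideanSpace ℝ (Fin n)) 1)).toReal

/-- `sn_b (r)`: equal to `r` if `b = 0`, and to `sinh (b r) / b` otherwise. -/
noncomputable def sn (b r : ℝ) : ℝ := if b = 0 then r else Real.sinh (b * r) / b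

/-- The area `n ω_n sn_b(r)^(n-1)` of a geodesic sphere of radius `r` in the space form of
curvature `-b²`. -/
noncomputable def modelArea (n : ℕ) (b r : ℝ) : ℝ := n * omega n * sn b r ^ (n - 1)

/-- The volume `n ω_n ∫_0^r sn_b(t)^(n-1) dt` of a geodesic ball of radius `r` in the space form of
curvature `-b²`. -/
noncomputable def modelVol (n : ℕ) (b r : ℝ) : ℝ :=
  n * omega n * ∫ t in (0 : ℝ)..r, sn b t ^ (n - 1)

/-- The isoperimetric profile of the space form of curvature `-b²`: the area of the geodesic ball of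
volume `V`, whose radius is the supremum of the `r ≥ 0` with `modelVol n b r ≤ V`. -/
noncomputable def modelProfile (n : ℕ) (b V : ℝ) : ℝ :=
  modelArea n b (sSup {r | 0 ≤ r ∧ modelVol n b r ≤ V})

end Vale.Agent.Lib.P219
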