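import Vale.Agent.Lib.P219.Frames

/-! Truncations of a function and the coarea type averaging over its levels. -/

open MeasureTheory Set Filter Topology

namespace Vale.Agent.Lib.P219

variable {k : ℕ}

/-- A smooth truncation of `f` between the levels `s` and `s + δ`. -/
noncomputable def levelFn (f : (Fin k → ℝ) → ℝ) (s δ : ℝ) (x : Fin k → ℝ) : ℝ :=
  Real.smoothTransition ((f x - s) / δ)

lemma contDiff_smoothTransition_one : ContDiff ℝ 1 Real.smoothTransition :=
  Real.smoothTransition.contDiff (n := 1)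

lemma differentiable_smoothTransition : Differentiable ℝ Real.smoothTransition :=
  contDiff_smoothTransition_one.differentiable (by norm_num)

lemma continuous_deriv_smoothTransition : Continuous (deriv Real.smoothTransition) :=
  contDiff_smoothTransition_one.continuous_deriv le_rfl

lemma deriv_smoothTransition_nonneg (r : ℝ) : 0 ≤ deriv Real.smoothTransition r :=
  Real.smoothTransition.monotone.deriv_nonneg

lemma deriv_smoothTransition_of_neg {r : ℝ} (hr : r < 0) : deriv Real.smoothTransition r = 0 := by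
  have h : Real.smoothTransition =ᶠ[𝓝 r] fun _ => 0 := by
    filter_upwards [Iio_mem_nhds hr] with z hz
    exact Real.smoothTransition.zero_of_nonpos (le_of_lt hz)
  rw [h.deriv_eq]
  simp

lemma contDiff_levelFn {f : (Fin k → ℝ) → ℝ} (hf : ContDiff ℝ 1 f) (s δ : ℝ) :
    ContDiff ℝ 1 (levelFn f s δ) :=
  contDiff_smoothTransition_one.comp ((hf.sub contDiff_const).div_const δ)

lemma levelFn_nonneg (f : (Fin k → ℝ) → ℝ) (s δ : ℝ) (x : Fin k → ℝ) : 0 ≤ levelFn f s δ x :=
  Real.smoothTransition.nonneg _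

lemma levelFn_le_one (f : (Fin k → ℝ) → ℝ) (s δ : ℝ) (x : Fin k → ℝ) : levelFn f s δ x ≤ 1 :=
  Real.smoothTransition.le_one _

lemma levelFn_eq_zero {f : (Fin k → ℝ) → ℝ} {s δ : ℝ} {x : Fin k → ℝ} (hδ : 0 < δ)
    (h : f x ≤ s) : levelFn f s δ x = 0 :=
  Real.smoothTransition.zero_of_nonpos (div_nonpos_of_nonpos_of_nonneg (by linarith) hδ.le)

lemma levelFn_eq_one {f : (Fin k → ℝ) → ℝ} {s δ : ℝ} {x : Fin k → ℝ} (hδ : 0 < δ)
    (h : s + δ ≤ f x) : levelFn f s δ x = 1 := by
  refine Real.smoothTransition.one_of_one_le ?_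
  rw [le_div_iff₀ hδ]
  linarith

lemma hasCompactSupport_levelFn {f : (Fin k → ℝ) → ℝ} (hfc : HasCompactSupport f) {s δ : ℝ}
    (hs : 0 ≤ s) (hδ : 0 < δ) : HasCompactSupport (levelFn f s δ) := by
  refine HasCompactSupport.intro hfc (fun x hx => ?_)
  have : f x = 0 := image_eq_zero_of_notMem_tsupport hx
  exact levelFn_eq_zero hδ (by rw [this]; exact hs)

lemma pd_levelFn {f : (Fin k → ℝ) → ℝ} (hf : ContDiff ℝ 1 f) (s δ : ℝ) (j : Fin k)
    (x : Fin k → ℝ) :
    pd (levelFn f s δ) j x = deriv Real.smoothTransition ((f x - s) / δ) / δ * pd f j x := by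
  unfold pd
  have h1 : HasFDerivAt f (fderiv ℝ f x) x := (hf.differentiable (by norm_num) x).hasFDerivAt
  have h2 : HasFDerivAt (fun z => (f z - s) / δ) (δ⁻¹ • fderiv ℝ f x) x := by
    have := (h1.sub_const s).const_mul δ⁻¹
    simpa [div_eq_inv_mul] using this
  have h3 : HasDerivAt Real.smoothTransition (deriv Real.smoothTransition ((f x - s) / δ))
      ((f x - s) / δ) := (differentiable_smoothTransition _).hasDerivAt
  have h4 := h3.comp_hasFDerivAt x h2
  have h5 : levelFn f s δ = Real.smoothTransition ∘ fun z => (f z - s) / δ := rfl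
  rw [h5, h4.fderiv]
  simp [div_eq_mul_inv]
  ring

lemma fieldDeriv_levelFn {f : (Fin k → ℝ) → ℝ} (hf : ContDiff ℝ 1 f)
    (a : Fin k → Fin k → (Fin k → ℝ) → ℝ) (s δ : ℝ) (i : Fin k) (x : Fin k → ℝ) :
    fieldDeriv a i (levelFn f s δ) x =
      deriv Real.smoothTransition ((f x - s) / δ) / δ * fieldDeriv a i f x := by
  unfold fieldDeriv
  rw [Finset.mul_sum]
  refine Finset.sum_congr rfl (fun j _ => ?_)
  rw [pd_levelFn hf]
  ring

lemma gradNorm_levelFn {f : (Fin k → ℝ) → ℝ} (hf : ContDiff ℝ 1 f)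
    (a : Fin k → Fin k → (Fin k → ℝ) → ℝ) (s : ℝ) {δ : ℝ} (hδ : 0 < δ) (x : Fin k → ℝ) :
    gradNorm a (levelFn f s δ) x =
      deriv Real.smoothTransition ((f x - s) / δ) / δ * gradNorm a f x := by
  unfold gradNorm
  have h : ∑ i, fieldDeriv a i (levelFn f s δ) x ^ 2 =
      (deriv Real.smoothTransition ((f x - s) / δ) / δ) ^ 2 * ∑ i, fieldDeriv a i f x ^ 2 := by
    rw [Finset.mul_sum]
    refine Finset.sum_congr rfl (fun i _ => ?_)
    rw [fieldDeriv_levelFn hf, mul_pow]
  have hnn : 0 ≤ deriv Real.smoothTransition ((f x - s) / δ) / δ :=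
    div_nonneg (deriv_smoothTransition_nonneg _) hδ.le
  rw [h, Real.sqrt_mul (sq_nonneg _), Real.sqrt_sq hnn]

/-- The integral in `s` of the density of the truncation at a point is at most one. -/
lemma lintegral_level_density {y δ : ℝ} (hy : 0 ≤ y) (hδ : 0 < δ) :
    ∫⁻ s in Ioi (0 : ℝ), ENNReal.ofReal (deriv Real.smoothTransition ((y - s) / δ) / δ) ≤ 1 := by
  set h : ℝ → ℝ := fun s => deriv Real.smoothTransition ((y - s) / δ) / δ with hh
  have hcont : Continuous h :=
    (continuous_deriv_smoothTransition.comp ((continuous_const.sub continuous_id).div_const δ)).div_const δ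
  have hnn : ∀ s, 0 ≤ h s := fun s => div_nonneg (deriv_smoothTransition_nonneg _) hδ.le
  have hsplit : Ioi (0 : ℝ) = Ioc 0 y ∪ Ioi y := (Ioc_union_Ioi_eq_Ioi hy).symm
  rw [hsplit, lintegral_union measurableSet_Ioi (by
    rw [Set.disjoint_left]; intro s hs hs'; exact absurd hs.2 (not_le.2 hs'))]
  have h2 : ∫⁻ s in Ioi y, ENNReal.ofReal (h s) = 0 := by
    have : ∀ s ∈ Ioi y, ENNReal.ofReal (h s) = 0 := by
      intro s hs
      have hneg : (y - s) / δ < 0 := div_neg_of_neg_of_pos (by linarith [mem_Ioi.1 hs]) hδ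
      simp [hh, deriv_smoothTransition_of_neg hneg]
    rw [setLIntegral_congr_fun measurableSet_Ioi this]
    simp
  rw [h2, add_zero]
  have hint : IntegrableOn h (Ioc 0 y) :=
    (hcont.integrableOn_Icc (a := 0) (b := y)).mono_set Ioc_subset_Icc_self
  rw [← ofReal_integral_eq_lintegral_ofReal hint
    (Filter.Eventually.of_forall hnn)]
  rw [← intervalIntegral.integral_of_le hy]
  have hderiv : ∀ s, HasDerivAt (fun s => - Real.smoothTransition ((y - s) / δ)) (h s) s := by
    intro s
    have h1 : HasDerivAt Real.smoothTransition (deriv Real.smoothTransition ((y - s) / δ))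
        ((y - s) / δ) := (differentiable_smoothTransition _).hasDerivAt
    have h2 : HasDerivAt (fun s => (y - s) / δ) (-1 / δ) s := by
      have := ((hasDerivAt_id s).const_sub y).div_const δ
      simpa using this
    have h3 := (h1.comp s h2).neg
    have h4 : -(deriv Real.smoothTransition ((y - s) / δ) * (-1 / δ)) = h s := by
      simp only [hh]; ring
    rw [h4] at h3
    exact h3
  rw [intervalIntegral.integral_eq_sub_of_hasDerivAt (fun s _ => hderiv s)
    (hcont.intervalIntegrable _ _)]
  have h5 : Real.smoothTransition ((y - y) / δ) = 0 := by simp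
  simp only [h5]
  have h6 := Real.smoothTransition.le_one ((y - 0) / δ)
  have h7 := Real.smoothTransition.nonneg ((y - 0) / δ)
  rw [show (1 : ENNReal) = ENNReal.ofReal 1 by simp]
  refine ENNReal.ofReal_le_ofReal ?_
  linarith

/-- Averaging over the levels: the integral over `s` of the gradient of the truncations between
levels `s` and `s + δ` is at most the integral of the gradient of `f`. -/
lemma lintegral_level_le {a : Fin k → Fin k → (Fin k → ℝ) → ℝ} (ha : IsMonotoneFrame a)
    {f : (Fin k → ℝ) → ℝ} (hf : ContDiff ℝ 1 f) (hf0 : ∀ x, 0 ≤ f x) {δ : ℝ} (hδ : 0 < δ) :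
    ∫⁻ s in Ioi (0 : ℝ), ∫⁻ x, ENNReal.ofReal (gradNorm a (levelFn f s δ) x) ≤
      ∫⁻ x, ENNReal.ofReal (gradNorm a f x) := by
  have hform : ∀ s x, ENNReal.ofReal (gradNorm a (levelFn f s δ) x) =
      ENNReal.ofReal (deriv Real.smoothTransition ((f x - s) / δ) / δ) *
        ENNReal.ofReal (gradNorm a f x) := by
    intro s x
    rw [gradNorm_levelFn hf a s hδ]
    exact ENNReal.ofReal_mul (div_nonneg (deriv_smoothTransition_nonneg _) hδ.le)
  simp only [hform]
  have hgc : Continuous (gradNorm a f) := continuous_gradNorm ha hf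
  have hmeas : Measurable (Function.uncurry fun (s : ℝ) (x : Fin k → ℝ) =>
      ENNReal.ofReal (deriv Real.smoothTransition ((f x - s) / δ) / δ) *
        ENNReal.ofReal (gradNorm a f x)) := by
    refine Continuous.measurable ?_
    refine (ENNReal.continuous_ofReal.comp ?_).ennreal_mul (ENNReal.continuous_ofReal.comp ?_) ?_ ?_
    · refine (continuous_deriv_smoothTransition.comp ?_).div_const δ
      exact ((hf.continuous.comp continuous_snd).sub continuous_fst).div_const δ
    · exact hgc.comp continuous_snd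
    · intro p; exact Or.inr ENNReal.ofReal_ne_top
    · intro p; exact Or.inr ENNReal.ofReal_ne_top
  rw [lintegral_lintegral_swap hmeas.aemeasurable]
  refine lintegral_mono (fun x => ?_)
  rw [lintegral_mul_const' _ _ ENNReal.ofReal_ne_top]
  calc (∫⁻ s in Ioi (0 : ℝ), ENNReal.ofReal (deriv Real.smoothTransition ((f x - s) / δ) / δ)) *
        ENNReal.ofReal (gradNorm a f x)
      ≤ 1 * ENNReal.ofReal (gradNorm a f x) := by
        gcongr
        exact lintegral_level_density (hf0 x) hδ
    _ = ENNReal.ofReal (gradNorm a f x) := one_mul _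

/-- The main averaging lemma: a lower bound for the gradient of the truncations, in the limit
where `δ → 0`, gives a lower bound for the gradient of `f`. -/
theorem lintegral_of_liminf_level {a : Fin k → Fin k → (Fin k → ℝ) → ℝ} (ha : IsMonotoneFrame a)
    {f : (Fin k → ℝ) → ℝ} (hf : ContDiff ℝ 1 f) (hfc : HasCompactSupport f)
    (hf0 : ∀ x, 0 ≤ f x) {I : ℝ → ℝ}
    (hI : ∀ s, 0 < s → ENNReal.ofReal (I s) ≤ liminf (fun m : ℕ =>
      ENNReal.ofReal (∫ x, gradNorm a (levelFn f s (1 / ((m : ℝ) + 1))) x)) atTop) :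
    ∫⁻ s in Ioi (0 : ℝ), ENNReal.ofReal (I s) ≤ ENNReal.ofReal (∫ x, gradNorm a f x) := by
  have hgc : Continuous (gradNorm a f) := continuous_gradNorm ha hf
  have hgi : Integrable (gradNorm a f) := hgc.integrable_of_hasCompactSupport
    (hasCompactSupport_gradNorm hfc)
  have hg0 : ∀ x, 0 ≤ gradNorm a f x := fun x => Real.sqrt_nonneg _
  rw [ofReal_integral_eq_lintegral_ofReal hgi (Filter.Eventually.of_forall hg0)]
  set Gm : ℕ → ℝ → ENNReal := fun m s =>
    ∫⁻ x, ENNReal.ofReal (gradNorm a (levelFn f s (1 / ((m : ℝ) + 1))) x) with hGm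
  have hδ : ∀ m : ℕ, (0 : ℝ) < 1 / ((m : ℝ) + 1) := fun m => by positivity
  have hGeq : ∀ (m : ℕ) (s : ℝ), 0 < s →
      ENNReal.ofReal (∫ x, gradNorm a (levelFn f s (1 / ((m : ℝ) + 1))) x) = Gm m s := by
    intro m s hs
    have hc := contDiff_levelFn hf s (1 / ((m : ℝ) + 1))
    have hcs := hasCompactSupport_levelFn hfc hs.le (hδ m)
    have hi : Integrable (gradNorm a (levelFn f s (1 / ((m : ℝ) + 1)))) :=
      (continuous_gradNorm ha hc).integrable_of_hasCompactSupport (hasCompactSupport_gradNorm hcs)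
    exact ofReal_integral_eq_lintegral_ofReal hi (Filter.Eventually.of_forall fun x => Real.sqrt_nonneg _)
  have hGmeas : ∀ m, Measurable (Gm m) := by
    intro m
    refine Measurable.lintegral_prod_right' (f := fun p : ℝ × (Fin k → ℝ) =>
      ENNReal.ofReal (gradNorm a (levelFn f p.1 (1 / ((m : ℝ) + 1))) p.2)) ?_
    have hform : ∀ p : ℝ × (Fin k → ℝ), gradNorm a (levelFn f p.1 (1 / ((m : ℝ) + 1))) p.2 =
        deriv Real.smoothTransition ((f p.2 - p.1) / (1 / ((m : ℝ) + 1))) / (1 / ((m : ℝ) + 1)) *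
          gradNorm a f p.2 := fun p => gradNorm_levelFn hf a p.1 (hδ m) p.2
    simp only [hform]
    refine Continuous.measurable ?_
    refine ENNReal.continuous_ofReal.comp (Continuous.mul ?_ (hgc.comp continuous_snd))
    refine (continuous_deriv_smoothTransition.comp ?_).div_const _
    exact ((hf.continuous.comp continuous_snd).sub continuous_fst).div_const _
  calc ∫⁻ s in Ioi (0 : ℝ), ENNReal.ofReal (I s)
      ≤ ∫⁻ s in Ioi (0 : ℝ), liminf (fun m : ℕ => Gm m s) atTop := by
        refine setLIntegral_mono' measurableSet_Ioi (fun s hs => ?_)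
        have := hI s hs
        simp only [hGeq _ s hs] at this
        exact this
    _ ≤ liminf (fun m : ℕ => ∫⁻ s in Ioi (0 : ℝ), Gm m s) atTop :=
        lintegral_liminf_le (fun m => hGmeas m)
    _ ≤ ∫⁻ x, ENNReal.ofReal (gradNorm a f x) := by
        refine liminf_le_of_le ?_ ?_
        · exact ⟨0, Filter.Eventually.of_forall fun m => bot_le⟩
        · intro b hb
          obtain ⟨m, hm⟩ := hb.exists
          exact hm.trans (lintegral_level_le ha hf hf0 (hδ m))

end Vale.Agent.Lib.P219
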