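import Vale.Agent.Lib.P219.JForm
import Vale.Agent.Lib.P219.Layer

/-! The sharp `L¹` Sobolev inequality with the Euclidean constant. -/

open MeasureTheory Set Filter Topology

namespace Vale.Agent.Lib.P219

variable {k : ℕ}

lemma measurableSet_lt_level {f : (Fin k → ℝ) → ℝ} (hf : Continuous f) (s : ℝ) :
    MeasurableSet {x | s < f x} :=
  (isOpen_lt continuous_const hf).measurableSet

lemma measurableSet_le_level {f : (Fin k → ℝ) → ℝ} (hf : Continuous f) (s : ℝ) :
    MeasurableSet {x | s ≤ f x} :=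
  (isClosed_le continuous_const hf).measurableSet

lemma volume_lt_level_lt_top {f : (Fin k → ℝ) → ℝ} (hfc : HasCompactSupport f) {s : ℝ}
    (hs : 0 ≤ s) : volume {x | s < f x} < ⊤ := by
  refine lt_of_le_of_lt (measure_mono ?_) hfc.isCompact.measure_lt_top
  intro x hx
  refine subset_tsupport _ ?_
  have : s < f x := hx
  intro h
  simp only [h] at this
  linarith

lemma volume_le_level_lt_top {f : (Fin k → ℝ) → ℝ} (hfc : HasCompactSupport f) {s : ℝ}
    (hs : 0 < s) : volume {x | s ≤ f x} < ⊤ := by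
  refine lt_of_le_of_lt (measure_mono ?_) hfc.isCompact.measure_lt_top
  intro x hx
  refine subset_tsupport _ ?_
  have : s ≤ f x := hx
  intro h
  simp only [h] at this
  linarith

/-- The mass of the truncation is at most the volume of the level set. -/
lemma integral_levelFn_le {f : (Fin k → ℝ) → ℝ} (hf : ContDiff ℝ 1 f) (hfc : HasCompactSupport f)
    {s δ : ℝ} (hs : 0 < s) (hδ : 0 < δ) :
    ∫ x, levelFn f s δ x ≤ (volume {x | s < f x}).toReal := by
  have hm := measurableSet_lt_level hf.continuous s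
  have hfin := volume_lt_level_lt_top hfc hs.le
  have hc : Continuous (levelFn f s δ) := (contDiff_levelFn hf s δ).continuous
  have hcs := hasCompactSupport_levelFn hfc hs.le hδ
  have hi : Integrable (levelFn f s δ) := hc.integrable_of_hasCompactSupport hcs
  have hind : Integrable ({x | s < f x}.indicator (fun _ => (1 : ℝ))) := by
    rw [integrable_indicator_iff hm]
    exact integrableOn_const hfin.ne
  have hval : ∫ x, {x | s < f x}.indicator (fun _ => (1 : ℝ)) x = (volume {x | s < f x}).toReal := by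
    rw [integral_indicator hm]
    simp [Measure.real]
  rw [← hval]
  refine integral_mono hi hind (fun x => ?_)
  by_cases hx : s < f x
  · simp only [indicator, mem_ofPred_eq, hx, if_true]
    exact levelFn_le_one f s δ x
  · simp only [indicator, mem_ofPred_eq, hx, if_false]
    exact (levelFn_eq_zero hδ (not_lt.1 hx)).le

/-- The volume of the higher level set is at most `∫ g * g ^ θ`. -/
lemma volume_le_integral_levelFn {f : (Fin k → ℝ) → ℝ} (hf : ContDiff ℝ 1 f)
    (hfc : HasCompactSupport f) {s δ θ : ℝ} (hs : 0 < s) (hδ : 0 < δ) (hθ : 0 < θ) :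
    (volume {x | s + δ ≤ f x}).toReal ≤ ∫ x, levelFn f s δ x * levelFn f s δ x ^ θ := by
  have hm := measurableSet_le_level hf.continuous (s + δ)
  have hfin := volume_le_level_lt_top hfc (show 0 < s + δ by linarith)
  have hc : Continuous (levelFn f s δ) := (contDiff_levelFn hf s δ).continuous
  have hcs := hasCompactSupport_levelFn hfc hs.le hδ
  have hi : Integrable (fun x => levelFn f s δ x * levelFn f s δ x ^ θ) :=
    (hc.mul (hc.rpow_const (fun x => Or.inr hθ.le))).integrable_of_hasCompactSupport hcs.mul_right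
  have hind : Integrable ({x | s + δ ≤ f x}.indicator (fun _ => (1 : ℝ))) := by
    rw [integrable_indicator_iff hm]
    exact integrableOn_const hfin.ne
  have hval : ∫ x, {x | s + δ ≤ f x}.indicator (fun _ => (1 : ℝ)) x =
      (volume {x | s + δ ≤ f x}).toReal := by
    rw [integral_indicator hm]
    simp [Measure.real]
  rw [← hval]
  refine integral_mono hind hi (fun x => ?_)
  by_cases hx : s + δ ≤ f x
  · simp only [indicator, mem_ofPred_eq, hx, if_true]
    rw [levelFn_eq_one hδ hx]
    simp
  · simp only [indicator, mem_ofPred_eq, hx, if_false]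
    exact mul_nonneg (levelFn_nonneg f s δ x) (Real.rpow_nonneg (levelFn_nonneg f s δ x) _)

/-- Convergence of the volumes of the higher level sets. -/
lemma tendsto_volume_level {f : (Fin k → ℝ) → ℝ} (hfc : HasCompactSupport f)
    {s : ℝ} (hs : 0 < s) :
    Tendsto (fun m : ℕ => (volume {x | s + 1 / ((m : ℝ) + 1) ≤ f x}).toReal) atTop
      (𝓝 (volume {x | s < f x}).toReal) := by
  have hmono : Monotone (fun m : ℕ => {x | s + 1 / ((m : ℝ) + 1) ≤ f x}) := by
    intro m m' hmm x hx
    have h1 : (1 : ℝ) / ((m' : ℝ) + 1) ≤ 1 / ((m : ℝ) + 1) := by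
      refine one_div_le_one_div_of_le (by positivity) ?_
      have : (m : ℝ) ≤ m' := by exact_mod_cast hmm
      linarith
    have hx' : s + 1 / ((m : ℝ) + 1) ≤ f x := hx
    show s + 1 / ((m' : ℝ) + 1) ≤ f x
    linarith
  have hunion : ⋃ m : ℕ, {x | s + 1 / ((m : ℝ) + 1) ≤ f x} = {x | s < f x} := by
    ext x
    simp only [mem_iUnion, mem_ofPred_eq]
    constructor
    · rintro ⟨m, hm⟩
      have : (0 : ℝ) < 1 / ((m : ℝ) + 1) := by positivity
      linarith
    · intro hx
      obtain ⟨m, hm⟩ := exists_nat_one_div_lt (sub_pos.2 hx)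
      exact ⟨m, by linarith⟩
  have h := tendsto_measure_iUnion_atTop (μ := (volume : Measure (Fin k → ℝ))) hmono
  rw [hunion] at h
  have hfin := volume_lt_level_lt_top hfc hs.le
  exact (ENNReal.tendsto_toReal hfin.ne).comp h

/-- The integrated form of the inequality over the level sets of `f`. -/
theorem euclid_lintegral {n : ℕ} (hn : 1 ≤ n) {a : Fin (n + 1) → Fin (n + 1) → (Fin (n + 1) → ℝ) → ℝ}
    (ha : IsMonotoneFrame a) {f : (Fin (n + 1) → ℝ) → ℝ} (hf : ContDiff ℝ 1 f)
    (hfc : HasCompactSupport f) (hf0 : ∀ x, 0 ≤ f x) :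
    ∫⁻ s in Ioi (0 : ℝ), ENNReal.ofReal (((n : ℝ) + 1) * omega (n + 1) ^ (1 / ((n : ℝ) + 1)) *
      (volume {x | s < f x}).toReal ^ ((n : ℝ) / ((n : ℝ) + 1))) ≤
      ENNReal.ofReal (∫ x, gradNorm a f x) := by
  refine lintegral_of_liminf_level ha hf hfc hf0 (fun s hs => ?_)
  set θ : ℝ := 1 / ((n : ℝ) + 1) with hθ
  have hθpos : 0 < θ := by positivity
  have hcast : ((n + 1 : ℕ) : ℝ) = (n : ℝ) + 1 := by push_cast; rfl
  set V := (volume {x | s < f x}).toReal with hV
  have hV0 : 0 ≤ V := ENNReal.toReal_nonneg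
  set P : ℝ := ((n : ℝ) + 1) * omega (n + 1) ^ θ with hP
  have hω := omega_pos (n + 1)
  have hPpos : 0 < P := by positivity
  set F : ℕ → ℝ := fun m => P * V ^ (-θ) * (volume {x | s + 1 / ((m : ℝ) + 1) ≤ f x}).toReal with hF
  have hFle : ∀ m : ℕ, F m ≤ ∫ x, gradNorm a (levelFn f s (1 / ((m : ℝ) + 1))) x := by
    intro m
    have hδ : (0 : ℝ) < 1 / ((m : ℝ) + 1) := by positivity
    set g := levelFn f s (1 / ((m : ℝ) + 1)) with hg
    have hJ := jform (n + 1) (by omega) a ha g (contDiff_levelFn hf s _)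
      (hasCompactSupport_levelFn hfc hs.le hδ) (levelFn_nonneg f s _)
    have hθ' : 1 / ((n + 1 : ℕ) : ℝ) = θ := by rw [hθ, hcast]
    rw [hθ', hcast] at hJ
    have hM := integral_levelFn_le hf hfc hs hδ
    have hW := volume_le_integral_levelFn hf hfc hs hδ hθpos
    have hM0 : 0 ≤ ∫ x, g x := integral_nonneg (levelFn_nonneg f s _)
    set W := (volume {x | s + 1 / ((m : ℝ) + 1) ≤ f x}).toReal with hWdef
    have hW0 : 0 ≤ W := ENNReal.toReal_nonneg
    have hgrad0 : 0 ≤ ∫ x, gradNorm a g x := integral_nonneg (fun x => Real.sqrt_nonneg _)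
    have hVθ : 0 ≤ V ^ (-θ) := Real.rpow_nonneg hV0 _
    by_cases hMz : ∫ x, g x = 0
    · -- then the level set is null
      have hg0 : ∀ x, g x = 0 := by
        intro x
        by_contra hne
        have hpos := Continuous.integral_pos_of_hasCompactSupport_nonneg_nonzero
          (μ := (volume : Measure (Fin (n + 1) → ℝ)))
          (contDiff_levelFn hf s _).continuous (hasCompactSupport_levelFn hfc hs.le hδ)
          (levelFn_nonneg f s _) hne
        linarith
      have h2 : ∫ x, g x * g x ^ θ = 0 := by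
        simp only [hg0]
        simp
      have : W ≤ 0 := hW.trans (le_of_eq h2)
      have hWz : W = 0 := le_antisymm this hW0
      show P * V ^ (-θ) * W ≤ _
      rw [hWz]
      simpa using hgrad0
    · have hMpos : 0 < ∫ x, g x := lt_of_le_of_ne hM0 (Ne.symm hMz)
      have hVpos : 0 < V := lt_of_lt_of_le hMpos hM
      have hmono : V ^ (-θ) ≤ (∫ x, g x) ^ (-θ) :=
        Real.rpow_le_rpow_of_nonpos hMpos hM (by linarith)
      calc F m = P * V ^ (-θ) * W := rfl
        _ ≤ P * (∫ x, g x) ^ (-θ) * ∫ x, g x * g x ^ θ := by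
            refine mul_le_mul (mul_le_mul_of_nonneg_left hmono hPpos.le) hW hW0 ?_
            positivity
        _ ≤ ∫ x, gradNorm a g x := hJ
  have hFlim : Tendsto F atTop (𝓝 (P * V ^ ((n : ℝ) / ((n : ℝ) + 1)))) := by
    have h1 := (tendsto_volume_level hfc hs).const_mul (P * V ^ (-θ))
    have h2 : P * V ^ (-θ) * V = P * V ^ ((n : ℝ) / ((n : ℝ) + 1)) := by
      by_cases hVz : V = 0
      · rw [hVz]
        have hnpos : (n : ℝ) / ((n : ℝ) + 1) ≠ 0 := by
          have : (0 : ℝ) < n := by exact_mod_cast hn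
          positivity
        rw [Real.zero_rpow hnpos]
        simp
      · have hVpos : 0 < V := lt_of_le_of_ne hV0 (Ne.symm hVz)
        have h3 : (n : ℝ) / ((n : ℝ) + 1) = -θ + 1 := by
          rw [hθ]; field_simp; ring
        rw [h3, Real.rpow_add hVpos, Real.rpow_one]
        ring
    rw [h2] at h1
    exact h1
  have hlim := (ENNReal.continuous_ofReal.tendsto _).comp hFlim
  rw [← hlim.liminf_eq]
  refine liminf_le_liminf ?_
  exact Eventually.of_forall (fun m => ENNReal.ofReal_le_ofReal (hFle m))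

/-- The reverse Minkowski type inequality between the level sets and the `L^p` norm. -/
theorem lintegral_rpow_le_levels {f : (Fin k → ℝ) → ℝ} (hf : Continuous f)
    (hfc : HasCompactSupport f) (hf0 : ∀ x, 0 ≤ f x) {p q : ℝ} (hpq : p.HolderConjugate q) :
    (∫⁻ x, ENNReal.ofReal (f x) ^ p) ^ (1 / p) ≤
      ∫⁻ s in Ioi (0 : ℝ), (volume {x | s < f x}) ^ (1 / p) := by
  have hp0 : 0 < p := hpq.pos
  have hq0 : 0 < q := hpq.symm.pos
  set F : (Fin k → ℝ) → ENNReal := fun x => ENNReal.ofReal (f x) with hF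
  have hFm : Measurable F := ENNReal.measurable_ofReal.comp hf.measurable
  set T := ∫⁻ x, F x ^ p with hT
  have hpm1 : 0 < p - 1 := by
    have := hpq.lt
    linarith
  -- `T` is finite
  have hTtop : T ≠ ⊤ := by
    have hc : Continuous (fun x => f x ^ p) := hf.rpow_const (fun x => Or.inr hp0.le)
    have hcs : HasCompactSupport (fun x => f x ^ p) := by
      refine HasCompactSupport.intro hfc (fun x hx => ?_)
      have h0 : f x = 0 := image_eq_zero_of_notMem_tsupport hx
      simp only [h0]
      exact Real.zero_rpow hp0.ne'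
    have hi : Integrable (fun x => f x ^ p) := hc.integrable_of_hasCompactSupport hcs
    have : T = ∫⁻ x, ENNReal.ofReal (f x ^ p) := by
      refine lintegral_congr (fun x => ?_)
      exact ENNReal.ofReal_rpow_of_nonneg (hf0 x) hp0.le
    rw [this]
    exact hi.lintegral_lt_top.ne
  by_cases hT0 : T = 0
  · rw [hT0, ENNReal.zero_rpow_of_pos (by positivity)]
    exact bot_le
  -- the layer cake at a point
  set χ : (Fin k → ℝ) → ℝ → ENNReal := fun x s => if s < f x then 1 else 0 with hχ
  have hlayer : ∀ x, F x = ∫⁻ s in Ioi (0 : ℝ), χ x s := by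
    intro x
    have h1 : χ x = (Iio (f x)).indicator (fun _ => 1) := by
      funext s
      by_cases h : s < f x <;> simp [hχ, indicator, h]
    rw [h1, lintegral_indicator_const measurableSet_Iio, one_mul,
      Measure.restrict_apply measurableSet_Iio]
    have : Iio (f x) ∩ Ioi 0 = Ioo 0 (f x) := by
      ext s; simp [and_comm]
    rw [this, Real.volume_Ioo, sub_zero]
  have hmeas : Measurable (Function.uncurry fun (x : Fin k → ℝ) (s : ℝ) => χ x s * F x ^ (p - 1)) := by
    refine Measurable.mul ?_ ?_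
    · have hset : MeasurableSet {z : (Fin k → ℝ) × ℝ | z.2 < f z.1} :=
        measurableSet_lt measurable_snd (hf.measurable.comp measurable_fst)
      exact Measurable.ite hset measurable_const measurable_const
    · exact (hFm.comp measurable_fst).pow_const _
  have hholder : ∀ s, ∫⁻ x, χ x s * F x ^ (p - 1) ≤
      (volume {x | s < f x}) ^ (1 / p) * T ^ (1 / q) := by
    intro s
    have hset := measurableSet_lt_level hf s
    have h := ENNReal.lintegral_mul_le_Lp_mul_Lq (volume : Measure (Fin k → ℝ)) hpq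
      (f := fun x => χ x s) (g := fun x => F x ^ (p - 1))
      (Measurable.aemeasurable (Measurable.ite hset measurable_const measurable_const))
      ((hFm.pow_const _).aemeasurable)
    refine h.trans (le_of_eq ?_)
    congr 2
    · have : (fun x => (χ x s) ^ p) = {x | s < f x}.indicator (fun _ => 1) := by
        funext x
        by_cases hx : s < f x
        · simp [hχ, indicator, hx]
        · simp [hχ, indicator, hx, hp0]
      rw [this, lintegral_indicator_const hset, one_mul]
    · simp only [hT]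
      congr 1
      funext x
      rw [← ENNReal.rpow_mul, hpq.sub_one_mul_conj]
  -- the main chain
  have hTpow : T ^ (1 / q) ≠ ⊤ := by
    intro htop
    rw [ENNReal.rpow_eq_top_iff] at htop
    rcases htop with ⟨_, h⟩ | ⟨h, _⟩
    · exact absurd h (not_lt.2 (by positivity))
    · exact hTtop h
  have hchain : T ≤ (∫⁻ s in Ioi (0 : ℝ), (volume {x | s < f x}) ^ (1 / p)) * T ^ (1 / q) := by
    calc T = ∫⁻ x, F x * F x ^ (p - 1) := by
          simp only [hT]
          refine lintegral_congr (fun x => ?_)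
          by_cases hx : F x = 0
          · simp [hx, hp0, hpm1]
          · have hx2 : F x ≠ ⊤ := ENNReal.ofReal_ne_top
            have := ENNReal.rpow_add (x := F x) 1 (p - 1) hx hx2
            rw [ENNReal.rpow_one] at this
            rw [← this]
            congr 1
            ring
      _ = ∫⁻ x, ∫⁻ s in Ioi (0 : ℝ), χ x s * F x ^ (p - 1) := by
          refine lintegral_congr (fun x => ?_)
          rw [lintegral_mul_const' _ _ ?_, ← hlayer]
          intro htop
          rw [ENNReal.rpow_eq_top_iff] at htop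
          rcases htop with ⟨_, h⟩ | ⟨h, _⟩
          · linarith
          · exact ENNReal.ofReal_ne_top h
      _ = ∫⁻ s in Ioi (0 : ℝ), ∫⁻ x, χ x s * F x ^ (p - 1) :=
          lintegral_lintegral_swap hmeas.aemeasurable
      _ ≤ ∫⁻ s in Ioi (0 : ℝ), (volume {x | s < f x}) ^ (1 / p) * T ^ (1 / q) :=
          lintegral_mono (fun s => hholder s)
      _ = (∫⁻ s in Ioi (0 : ℝ), (volume {x | s < f x}) ^ (1 / p)) * T ^ (1 / q) :=
          lintegral_mul_const' _ _ hTpow
  have h1p1q : 1 / p + 1 / q = 1 := by simpa [one_div] using hpq.inv_add_inv_eq_one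
  have hsplit : T ^ (1 / p) * T ^ (1 / q) = T := by
    rw [← ENNReal.rpow_add _ _ hT0 hTtop, h1p1q, ENNReal.rpow_one]
  have hT1 : T ^ (1 / q) ≠ 0 := by
    intro h
    rw [ENNReal.rpow_eq_zero_iff] at h
    rcases h with ⟨h, _⟩ | ⟨h, h2⟩
    · exact hT0 h
    · exact absurd h2 (not_lt.2 (by positivity))
  have hcancel : ∀ {A B : ENNReal}, A * T ^ (1 / q) ≤ B * T ^ (1 / q) → A ≤ B := by
    intro A B h
    exact (ENNReal.mul_le_mul_iff_left hT1 hTpow).1 h
  refine hcancel ?_
  rw [hsplit]
  exact hchain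

/-- The sharp Sobolev inequality with the Euclidean constant in dimension `n + 1`. -/
theorem euclid_sobolev {n : ℕ} (hn : 1 ≤ n)
    {a : Fin (n + 1) → Fin (n + 1) → (Fin (n + 1) → ℝ) → ℝ} (ha : IsMonotoneFrame a)
    {f : (Fin (n + 1) → ℝ) → ℝ} (hf : ContDiff ℝ 1 f) (hfc : HasCompactSupport f)
    (hf0 : ∀ x, 0 ≤ f x) :
    ((n : ℝ) + 1) * omega (n + 1) ^ (1 / ((n : ℝ) + 1)) *
      (∫ x, f x ^ (((n : ℝ) + 1) / n)) ^ ((n : ℝ) / ((n : ℝ) + 1)) ≤ ∫ x, gradNorm a f x := by
  have hnpos : (0 : ℝ) < n := by exact_mod_cast hn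
  set p : ℝ := ((n : ℝ) + 1) / n with hp
  have hp1 : 1 < p := by
    rw [hp, lt_div_iff₀ hnpos]
    linarith
  have hpq : p.HolderConjugate ((n : ℝ) + 1) := by
    refine ⟨?_, ?_, ?_⟩
    · rw [hp]
      field_simp
    · rw [hp]; positivity
    · positivity
  have hinvp : 1 / p = (n : ℝ) / ((n : ℝ) + 1) := by
    rw [hp]; field_simp
  have hp0 : 0 < p := by linarith
  set P : ℝ := ((n : ℝ) + 1) * omega (n + 1) ^ (1 / ((n : ℝ) + 1)) with hP
  have hω := omega_pos (n + 1)
  have hPpos : 0 < P := by positivity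
  have hgrad0 : 0 ≤ ∫ x, gradNorm a f x := integral_nonneg (fun x => Real.sqrt_nonneg _)
  have h1 := euclid_lintegral hn ha hf hfc hf0
  have h2 := lintegral_rpow_le_levels hf.continuous hfc hf0 hpq
  -- the right side of `h1` in terms of the volumes
  have h3 : ∫⁻ s in Ioi (0 : ℝ), ENNReal.ofReal (P *
      (volume {x | s < f x}).toReal ^ ((n : ℝ) / ((n : ℝ) + 1))) =
      ENNReal.ofReal P * ∫⁻ s in Ioi (0 : ℝ), (volume {x | s < f x}) ^ (1 / p) := by
    rw [← lintegral_const_mul' _ _ ENNReal.ofReal_ne_top]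
    refine setLIntegral_congr_fun measurableSet_Ioi (fun s hs => ?_)
    have hfin := volume_lt_level_lt_top hfc (le_of_lt hs)
    rw [ENNReal.ofReal_mul hPpos.le, ← ENNReal.ofReal_rpow_of_nonneg ENNReal.toReal_nonneg
      (by positivity), ENNReal.ofReal_toReal hfin.ne, hinvp]
  rw [h3] at h1
  have hc : Continuous (fun x => f x ^ p) := hf.continuous.rpow_const (fun x => Or.inr hp0.le)
  have hcs : HasCompactSupport (fun x => f x ^ p) := by
    refine HasCompactSupport.intro hfc (fun x hx => ?_)
    have h0 : f x = 0 := image_eq_zero_of_notMem_tsupport hx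
    simp only [h0]
    exact Real.zero_rpow hp0.ne'
  have hi : Integrable (fun x => f x ^ p) := hc.integrable_of_hasCompactSupport hcs
  have hnn : 0 ≤ ∫ x, f x ^ p := integral_nonneg (fun x => Real.rpow_nonneg (hf0 x) _)
  have hT : ∫⁻ x, ENNReal.ofReal (f x) ^ p = ENNReal.ofReal (∫ x, f x ^ p) := by
    rw [ofReal_integral_eq_lintegral_ofReal hi (Eventually.of_forall fun x => Real.rpow_nonneg (hf0 x) _)]
    refine lintegral_congr (fun x => ?_)
    exact ENNReal.ofReal_rpow_of_nonneg (hf0 x) hp0.le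
  rw [hT, ENNReal.ofReal_rpow_of_nonneg hnn (by positivity)] at h2
  have h4 : ENNReal.ofReal (P * (∫ x, f x ^ p) ^ (1 / p)) ≤
      ENNReal.ofReal (∫ x, gradNorm a f x) := by
    rw [ENNReal.ofReal_mul hPpos.le]
    exact (mul_le_mul_right h2 _).trans h1
  rw [← hinvp]
  exact (ENNReal.ofReal_le_ofReal_iff hgrad0).1 h4

end Vale.Agent.Lib.P219
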