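import Vale.Agent.Lib.P219.Slices

/-! Regularity of the frame derivatives, and frames on the slices. -/

open MeasureTheory Set

namespace Vale.Agent.Lib.P219

variable {n k : ℕ}

lemma continuous_pd {g : (Fin k → ℝ) → ℝ} (hg : ContDiff ℝ 1 g) (j : Fin k) :
    Continuous (pd g j) :=
  (hg.continuous_fderiv (by norm_num)).clm_apply continuous_const

lemma pd_eq_zero_of_notMem {g : (Fin k → ℝ) → ℝ} {x : Fin k → ℝ} (hx : x ∉ tsupport g)
    (j : Fin k) : pd g j x = 0 := by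
  unfold pd
  have h : fderiv ℝ g x = 0 := by
    by_contra hne
    exact hx (support_fderiv_subset ℝ hne)
  simp [h]

lemma fieldDeriv_eq_zero_of_notMem {a : Fin k → Fin k → (Fin k → ℝ) → ℝ}
    {g : (Fin k → ℝ) → ℝ} {x : Fin k → ℝ} (hx : x ∉ tsupport g)
    (i : Fin k) : fieldDeriv a i g x = 0 := by
  unfold fieldDeriv
  exact Finset.sum_eq_zero (fun j _ => by rw [pd_eq_zero_of_notMem hx]; simp)

lemma continuous_fieldDeriv {a : Fin k → Fin k → (Fin k → ℝ) → ℝ} (ha : IsMonotoneFrame a)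
    {g : (Fin k → ℝ) → ℝ} (hg : ContDiff ℝ 1 g) (i : Fin k) :
    Continuous (fieldDeriv a i g) := by
  unfold fieldDeriv
  exact continuous_finsetSum _ (fun j _ => (ha.smooth i j).continuous.mul (continuous_pd hg j))

lemma hasCompactSupport_fieldDeriv {a : Fin k → Fin k → (Fin k → ℝ) → ℝ}
    {g : (Fin k → ℝ) → ℝ} (hgc : HasCompactSupport g) (i : Fin k) :
    HasCompactSupport (fieldDeriv a i g) :=
  HasCompactSupport.intro hgc (fun _ hx => fieldDeriv_eq_zero_of_notMem hx i)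

lemma continuous_gradNorm {a : Fin k → Fin k → (Fin k → ℝ) → ℝ} (ha : IsMonotoneFrame a)
    {g : (Fin k → ℝ) → ℝ} (hg : ContDiff ℝ 1 g) : Continuous (gradNorm a g) := by
  unfold gradNorm
  refine Continuous.sqrt ?_
  exact continuous_finsetSum _ (fun i _ => (continuous_fieldDeriv ha hg i).pow 2)

lemma hasCompactSupport_gradNorm {a : Fin k → Fin k → (Fin k → ℝ) → ℝ}
    {g : (Fin k → ℝ) → ℝ} (hgc : HasCompactSupport g) :
    HasCompactSupport (gradNorm a g) := by
  refine HasCompactSupport.intro hgc (fun x hx => ?_)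
  unfold gradNorm
  have : ∑ i, fieldDeriv a i g x ^ 2 = 0 :=
    Finset.sum_eq_zero (fun i _ => by rw [fieldDeriv_eq_zero_of_notMem hx]; simp)
  rw [this]; simp

lemma continuous_fieldDiv {a : Fin k → Fin k → (Fin k → ℝ) → ℝ} (ha : IsMonotoneFrame a)
    (i : Fin k) : Continuous (fieldDiv a i) := by
  unfold fieldDiv
  exact continuous_finsetSum _ (fun j _ => continuous_pd (ha.smooth i j) j)

/-- The frame induced on the slice `{x 0 = t}` by the fields `e_1, …, e_n`. -/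
def sliceFrame (a : Fin (n + 1) → Fin (n + 1) → (Fin (n + 1) → ℝ) → ℝ) (t : ℝ) :
    Fin n → Fin n → (Fin n → ℝ) → ℝ :=
  fun i j y => a i.succ j.succ (consP t y)

lemma pd_zero_of_lower {a : Fin (n + 1) → Fin (n + 1) → (Fin (n + 1) → ℝ) → ℝ}
    (ha : IsMonotoneFrame a) (i : Fin n) (x : Fin (n + 1) → ℝ) :
    pd (a i.succ 0) 0 x = 0 := by
  have h : a i.succ 0 = fun _ => 0 := by
    funext z
    exact ha.lower i.succ 0 z (Fin.succ_pos i)
  unfold pd
  rw [h]; simp

lemma fieldDiv_slice {a : Fin (n + 1) → Fin (n + 1) → (Fin (n + 1) → ℝ) → ℝ}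
    (ha : IsMonotoneFrame a) (t : ℝ) (i : Fin n) (y : Fin n → ℝ) :
    fieldDiv (sliceFrame a t) i y = fieldDiv a i.succ (consP t y) := by
  unfold fieldDiv
  rw [Fin.sum_univ_succ, pd_zero_of_lower ha, zero_add]
  refine Finset.sum_congr rfl (fun j _ => ?_)
  exact pd_slice t y j (((ha.smooth _ _).differentiable (by norm_num)) _)

lemma isMonotoneFrame_slice {a : Fin (n + 1) → Fin (n + 1) → (Fin (n + 1) → ℝ) → ℝ}
    (ha : IsMonotoneFrame a) (t : ℝ) : IsMonotoneFrame (sliceFrame a t) where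
  smooth i j := (ha.smooth _ _).comp (contDiff_consP t)
  diag i x := ha.diag _ _
  lower i j x hij := ha.lower _ _ _ (Fin.succ_lt_succ_iff.2 hij)
  mono i x y hxy hi := by
    rw [fieldDiv_slice ha, fieldDiv_slice ha]
    refine ha.mono i.succ _ _ ?_ ?_
    · intro k hk
      refine Fin.cases (fun _ => rfl) (fun l hl => ?_) k hk
      exact hxy l (Fin.succ_lt_succ_iff.1 hl)
    · exact hi

lemma fieldDeriv_slice {a : Fin (n + 1) → Fin (n + 1) → (Fin (n + 1) → ℝ) → ℝ}
    (ha : IsMonotoneFrame a) {g : (Fin (n + 1) → ℝ) → ℝ} (hg : Differentiable ℝ g)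
    (t : ℝ) (i : Fin n) (y : Fin n → ℝ) :
    fieldDeriv (sliceFrame a t) i (fun z => g (consP t z)) y = fieldDeriv a i.succ g (consP t y) := by
  unfold fieldDeriv
  rw [Fin.sum_univ_succ, ha.lower i.succ 0 _ (Fin.succ_pos i), zero_mul, zero_add]
  refine Finset.sum_congr rfl (fun j _ => ?_)
  rw [pd_slice t y j (hg _)]
  rfl

/-- The part of the gradient tangent to the slices. -/
noncomputable def tangNorm (a : Fin (n + 1) → Fin (n + 1) → (Fin (n + 1) → ℝ) → ℝ)
    (g : (Fin (n + 1) → ℝ) → ℝ) (x : Fin (n + 1) → ℝ) : ℝ :=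
  Real.sqrt (∑ i : Fin n, fieldDeriv a i.succ g x ^ 2)

lemma gradNorm_slice {a : Fin (n + 1) → Fin (n + 1) → (Fin (n + 1) → ℝ) → ℝ}
    (ha : IsMonotoneFrame a) {g : (Fin (n + 1) → ℝ) → ℝ} (hg : Differentiable ℝ g)
    (t : ℝ) (y : Fin n → ℝ) :
    gradNorm (sliceFrame a t) (fun z => g (consP t z)) y = tangNorm a g (consP t y) := by
  unfold gradNorm tangNorm
  congr 1
  refine Finset.sum_congr rfl (fun i _ => ?_)
  rw [fieldDeriv_slice ha hg]

lemma continuous_tangNorm {a : Fin (n + 1) → Fin (n + 1) → (Fin (n + 1) → ℝ) → ℝ}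
    (ha : IsMonotoneFrame a) {g : (Fin (n + 1) → ℝ) → ℝ} (hg : ContDiff ℝ 1 g) :
    Continuous (tangNorm a g) := by
  unfold tangNorm
  refine Continuous.sqrt ?_
  exact continuous_finsetSum _ (fun i _ => (continuous_fieldDeriv ha hg _).pow 2)

lemma hasCompactSupport_tangNorm {a : Fin (n + 1) → Fin (n + 1) → (Fin (n + 1) → ℝ) → ℝ}
    {g : (Fin (n + 1) → ℝ) → ℝ} (hgc : HasCompactSupport g) :
    HasCompactSupport (tangNorm a g) := by
  refine HasCompactSupport.intro hgc (fun x hx => ?_)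
  unfold tangNorm
  have : ∑ i : Fin n, fieldDeriv a i.succ g x ^ 2 = 0 :=
    Finset.sum_eq_zero (fun i _ => by rw [fieldDeriv_eq_zero_of_notMem hx]; simp)
  rw [this]; simp

/-- The Cauchy-Schwarz inequality splitting the gradient into the first field and the rest. -/
lemma gradNorm_ge (a : Fin (n + 1) → Fin (n + 1) → (Fin (n + 1) → ℝ) → ℝ)
    (g : (Fin (n + 1) → ℝ) → ℝ) (x : Fin (n + 1) → ℝ) {u R : ℝ} (h : u ^ 2 + R ^ 2 = 1) :
    -u * fieldDeriv a 0 g x + R * tangNorm a g x ≤ gradNorm a g x := by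
  unfold gradNorm
  rw [Fin.sum_univ_succ]
  have hB : tangNorm a g x ^ 2 = ∑ i : Fin n, fieldDeriv a i.succ g x ^ 2 := by
    unfold tangNorm
    exact Real.sq_sqrt (Finset.sum_nonneg (fun i _ => sq_nonneg _))
  rw [← hB]
  refine Real.le_sqrt_of_sq_le ?_
  set A := fieldDeriv a 0 g x
  set B := tangNorm a g x
  have : (-u * A + R * B) ^ 2 ≤ (u ^ 2 + R ^ 2) * (A ^ 2 + B ^ 2) := by
    nlinarith [sq_nonneg (u * B + R * A)]
  rw [h] at this
  linarith

end Vale.Agent.Lib.P219
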