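import Vale.Agent.Lib.P219.Defs

/-! The recursion for the volume of the unit ball. -/

open MeasureTheory Set Real

namespace Vale.Agent.Lib.P219

lemma omega_eq {n : ℕ} (hn : 1 ≤ n) : omega n = √π ^ n / Real.Gamma ((n : ℝ) / 2 + 1) := by
  have : Nonempty (Fin n) := Fin.pos_iff_nonempty.1 hn
  unfold omega
  rw [EuclideanSpace.volume_ball]
  simp only [Fintype.card_fin, ENNReal.ofReal_one, one_pow, one_mul]
  refine ENNReal.toReal_ofReal ?_
  have : 0 < Real.Gamma ((n : ℝ) / 2 + 1) := Real.Gamma_pos_of_pos (by positivity)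
  positivity

lemma sinInt_eq (k : ℕ) :
    ∫ x in (0 : ℝ)..π, sin x ^ k = √π * Real.Gamma (((k : ℝ) + 1) / 2) /
      Real.Gamma ((k : ℝ) / 2 + 1) := by
  induction k using Nat.twoStepInduction with
  | zero =>
    have h1 : (((0 : ℕ) : ℝ) + 1) / 2 = 1 / 2 := by norm_num
    have h2 : ((0 : ℕ) : ℝ) / 2 + 1 = 1 := by norm_num
    rw [h1, h2, Real.Gamma_one, Real.Gamma_one_half_eq]
    simp [Real.mul_self_sqrt Real.pi_pos.le]
  | one =>
    have h1 : (((1 : ℕ) : ℝ) + 1) / 2 = 1 := by norm_num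
    have h2 : ((1 : ℕ) : ℝ) / 2 + 1 = 1 / 2 + 1 := by norm_num
    have hp : (0 : ℝ) < √π := Real.sqrt_pos.2 Real.pi_pos
    rw [h1, h2, Real.Gamma_one, Real.Gamma_add_one (by norm_num), Real.Gamma_one_half_eq]
    simp only [pow_one, integral_sin, cos_zero, cos_pi]
    field_simp
    norm_num
  | more k ih _ =>
    have h := integral_sin_pow (a := 0) (b := π) (n := k)
    simp only [sin_zero, sin_pi, ne_eq, Nat.add_eq_zero_iff, one_ne_zero, and_false,
      not_false_eq_true, zero_pow, zero_mul, sub_self, zero_div, zero_add] at h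
    rw [h, ih]
    have hk1 : (0 : ℝ) < (k : ℝ) + 1 := by positivity
    have h1 : (((k + 2 : ℕ) : ℝ) + 1) / 2 = ((k : ℝ) + 1) / 2 + 1 := by push_cast; ring
    have h2 : ((k + 2 : ℕ) : ℝ) / 2 + 1 = ((k : ℝ) / 2 + 1) + 1 := by push_cast; ring
    rw [h1, h2, Real.Gamma_add_one (s := ((k : ℝ) + 1) / 2) (by positivity),
      Real.Gamma_add_one (s := (k : ℝ) / 2 + 1) (by positivity)]
    have hG1 : 0 < Real.Gamma ((k : ℝ) / 2 + 1) := Real.Gamma_pos_of_pos (by positivity)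
    have hG2 : 0 < Real.Gamma (((k : ℝ) + 1) / 2) := Real.Gamma_pos_of_pos (by positivity)
    field_simp

lemma beta_eq (n : ℕ) :
    ∫ v in (-1 : ℝ)..1, (1 - v ^ 2) ^ ((n : ℝ) / 2) = ∫ x in (0 : ℝ)..π, sin x ^ (n + 1) := by
  have h := intervalIntegral.integral_comp_mul_deriv (a := 0) (b := π)
    (f := fun x => - cos x) (f' := fun x => sin x) (g := fun v => (1 - v ^ 2) ^ ((n : ℝ) / 2))
    (fun x _ => by simpa using (hasDerivAt_cos x).fun_neg)
    continuousOn_sin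
    (by
      refine Continuous.rpow_const (by fun_prop) ?_
      intro v; right; positivity)
  simp only [cos_zero, cos_pi, neg_neg] at h
  rw [← h]
  refine intervalIntegral.integral_congr ?_
  intro x hx
  rw [uIcc_of_le Real.pi_pos.le] at hx
  have hs : 0 ≤ sin x := sin_nonneg_of_nonneg_of_le_pi hx.1 hx.2
  simp only [Function.comp]
  have h1 : 1 - (- cos x) ^ 2 = sin x ^ 2 := by
    have := sin_sq_add_cos_sq x
    nlinarith
  rw [h1, ← Real.rpow_natCast (sin x) 2, ← Real.rpow_mul hs, pow_succ]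
  congr 1
  rw [← Real.rpow_natCast]
  congr 1
  push_cast
  ring

theorem omega_succ {n : ℕ} (hn : 1 ≤ n) :
    omega (n + 1) = omega n * ∫ v in (-1 : ℝ)..1, (1 - v ^ 2) ^ ((n : ℝ) / 2) := by
  rw [beta_eq, sinInt_eq, omega_eq hn, omega_eq (Nat.le_succ_of_le hn)]
  have hG1 : 0 < Real.Gamma ((n : ℝ) / 2 + 1) := Real.Gamma_pos_of_pos (by positivity)
  have h1 : (((n + 1 : ℕ) : ℝ) + 1) / 2 = (n : ℝ) / 2 + 1 := by push_cast; ring
  rw [h1]
  have hG2 : 0 < Real.Gamma (((n + 1 : ℕ) : ℝ) / 2 + 1) := Real.Gamma_pos_of_pos (by positivity)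
  have hp : (0 : ℝ) < √π := Real.sqrt_pos.2 Real.pi_pos
  rw [pow_succ]
  field_simp

lemma omega_one : omega 1 = 2 := by
  rw [omega_eq le_rfl]
  have h : Real.Gamma (1 / 2 + 1) = √π / 2 := by
    rw [Real.Gamma_add_one (by norm_num), Real.Gamma_one_half_eq]; ring
  have hp : (0 : ℝ) < √π := Real.sqrt_pos.2 Real.pi_pos
  have h1 : ((1 : ℕ) : ℝ) / 2 + 1 = 1 / 2 + 1 := by norm_num
  rw [h1, h, pow_one]
  field_simp

end Vale.Agent.Lib.P219
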