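import Vale.Agent.Lib.P219.Step
import Vale.Agent.Lib.P219.Wallis

/-! The inductive inequality `JForm n` for every `n ≥ 1`. -/

open MeasureTheory Set Filter Topology

namespace Vale.Agent.Lib.P219

/-- The base of the induction. -/
theorem jform_one : JForm 1 := by
  intro a ha g hg hgc hg0
  have hgcont : Continuous g := hg.continuous
  have hgint : Integrable g := hgcont.integrable_of_hasCompactSupport hgc
  have hgrad0 : 0 ≤ ∫ x, gradNorm a g x := integral_nonneg (fun x => Real.sqrt_nonneg _)
  set M := ∫ x, g x with hM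
  have hM0 : 0 ≤ M := integral_nonneg hg0
  by_cases hMz : M = 0
  · simp [hMz, hgrad0]
  have hMpos : 0 < M := lt_of_le_of_ne hM0 (Ne.symm hMz)
  -- the transport of the mass of `g` to the constant density on `[-1, 1]`
  set m : ℝ → ℝ := fun t => ∫ z : Fin 0 → ℝ, g (consP t z) with hmdef
  have hmc : Continuous m := continuous_integral_slice hgcont hgc
  have hmcs : HasCompactSupport m := hasCompactSupport_integral_slice hgc
  have hm0 : ∀ t, 0 ≤ m t := fun t => integral_nonneg (fun z => hg0 _)
  have hmtotal : ∫ t, m t = M := (integral_eq_integral_slices hgint).symm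
  have hmval : ∀ x : Fin 1 → ℝ, m (x 0) = g x := by
    intro x
    simp only [hmdef]
    have hz : ∀ z : Fin 0 → ℝ, consP (x 0) z = x := by
      intro z
      funext i
      refine Fin.cases ?_ (fun j => j.elim0) i
      rfl
    have hvol : (volume : Measure (Fin 0 → ℝ)).real univ = 1 := by
      rw [Measure.real, volume_pi, Measure.pi_univ]
      simp
    simp [hz, hvol]
  obtain ⟨u, u', hu, hu'c, huw, hu'0, -, hurange, -, -⟩ :=
    exists_transport (w := fun _ => M / 2) continuous_const (c := M / 2) (by positivity)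
      (fun _ => le_rfl) hmc hm0 hmcs (y₁ := -1) (y₂ := 1)
      (by rw [hmtotal]; simp; ring)
  have hparts := integral_first_field ha hg hgc hu hu'c
  -- the divergence vanishes
  have hdiv : ∀ x, fieldDiv a 0 x = 0 := by
    intro x
    unfold fieldDiv
    rw [Fin.sum_univ_one]
    have : a 0 0 = fun _ => 1 := funext (ha.diag 0)
    unfold pd
    rw [this]; simp
  have hu'val : ∀ x : Fin 1 → ℝ, u' (x 0) = 2 / M * g x := by
    intro x
    have := huw (x 0)
    rw [hmval] at this
    rw [← this]
    field_simp
  simp only [hdiv, mul_zero, add_zero, hu'val] at hparts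
  have hucont : Continuous u := continuous_iff_continuousAt.2 fun t => (hu t).continuousAt
  have hu0 : Continuous (fun x : Fin 1 → ℝ => u (x 0)) := hucont.comp (continuous_apply 0)
  -- the gradient
  have hle : ∀ x, -(u (x 0) * fieldDeriv a 0 g x) ≤ gradNorm a g x := by
    intro x
    unfold gradNorm
    rw [Fin.sum_univ_one, Real.sqrt_sq_eq_abs]
    have h1 : |u (x 0)| ≤ 1 := abs_le.2 (hurange _)
    have h2 : -(u (x 0) * fieldDeriv a 0 g x) ≤ |u (x 0) * fieldDeriv a 0 g x| := neg_le_abs _
    rw [abs_mul] at h2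
    have h3 : |u (x 0)| * |fieldDeriv a 0 g x| ≤ 1 * |fieldDeriv a 0 g x| :=
      mul_le_mul_of_nonneg_right h1 (abs_nonneg _)
    linarith
  have hint1 : Integrable (fun x : Fin 1 → ℝ => -(u (x 0) * fieldDeriv a 0 g x)) :=
    ((hu0.mul (continuous_fieldDeriv ha hg 0)).integrable_of_hasCompactSupport
      (hasCompactSupport_fieldDeriv hgc 0).mul_left).neg
  have hint2 : Integrable (gradNorm a g) :=
    (continuous_gradNorm ha hg).integrable_of_hasCompactSupport (hasCompactSupport_gradNorm hgc)
  have hmono := integral_mono hint1 hint2 hle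
  rw [integral_neg, hparts, neg_neg] at hmono
  have hfinal : ∫ x, g x * (2 / M * g x) = 2 * M ^ (-(1 : ℝ)) * ∫ x, g x * g x := by
    rw [Real.rpow_neg_one, ← integral_const_mul]
    refine integral_congr_ae (Eventually.of_forall fun x => ?_)
    simp only []
    field_simp
  rw [hfinal] at hmono
  simp only [Nat.cast_one, one_div, inv_one, Real.rpow_one, omega_one, one_mul]
  exact hmono

/-- The induction step. -/
theorem jform_succ {n : ℕ} (hn : 1 ≤ n) (J : JForm n) : JForm (n + 1) := by
  intro a ha g hg hgc hg0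
  have hgcont : Continuous g := hg.continuous
  have hgint : Integrable g := hgcont.integrable_of_hasCompactSupport hgc
  have hgrad0 : 0 ≤ ∫ x, gradNorm a g x := integral_nonneg (fun x => Real.sqrt_nonneg _)
  set M := ∫ x, g x with hM
  have hM0 : 0 ≤ M := integral_nonneg hg0
  have hk : (0 : ℝ) < ((n + 1 : ℕ) : ℝ) := by positivity
  by_cases hMz : M = 0
  · have : (0 : ℝ) ^ (-(1 / ((n + 1 : ℕ) : ℝ))) = 0 := by
      refine Real.zero_rpow ?_
      exact neg_ne_zero.2 (one_div_ne_zero hk.ne')
    rw [hMz, this]
    simpa using hgrad0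
  have hMpos : 0 < M := lt_of_le_of_ne hM0 (Ne.symm hMz)
  have hω := omega_pos n
  set θ : ℝ := 1 / ((n : ℝ) + 1) with hθ
  have hθ' : 1 / ((n + 1 : ℕ) : ℝ) = θ := by rw [hθ]; push_cast; rfl
  have hθpos : 0 < θ := by positivity
  set Q := ∫ x, g x * g x ^ θ with hQ
  have hpow : Continuous (fun x => g x ^ θ) := hgcont.rpow_const (fun x => Or.inr hθpos.le)
  have hQint : Integrable (fun x => g x * g x ^ θ) :=
    (hgcont.mul hpow).integrable_of_hasCompactSupport hgc.mul_right
  have hQ0 : 0 ≤ Q := integral_nonneg (fun x => mul_nonneg (hg0 x) (Real.rpow_nonneg (hg0 x) _))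
  set RHS := ∫ x, gradNorm a g x with hRHS
  -- the partial mass
  set I : ℝ → ℝ := fun y => ∫ v in (-y)..y, (1 - v ^ 2) ^ ((n : ℝ) / 2) with hIdef
  have hfc : Continuous (fun v : ℝ => (1 - v ^ 2) ^ ((n : ℝ) / 2)) := by
    refine Continuous.rpow_const (by fun_prop) ?_
    intro v; right; positivity
  have hIcont : Continuous I := by
    have h1 : Continuous (fun y : ℝ => ∫ v in (0 : ℝ)..y, (1 - v ^ 2) ^ ((n : ℝ) / 2)) :=
      intervalIntegral.continuous_primitive (fun a b => hfc.intervalIntegrable a b) 0
    have h2 : I = fun y => (∫ v in (0 : ℝ)..y, (1 - v ^ 2) ^ ((n : ℝ) / 2)) -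
        ∫ v in (0 : ℝ)..(-y), (1 - v ^ 2) ^ ((n : ℝ) / 2) := by
      funext y
      simp only [hIdef]
      rw [intervalIntegral.integral_interval_sub_left (hfc.intervalIntegrable _ _)
        (hfc.intervalIntegrable _ _)]
    rw [h2]
    exact h1.sub (h1.comp continuous_neg)
  have hIpos : ∀ y, 0 < y → y < 1 → 0 < I y := by
    intro y hy0 hy1
    simp only [hIdef]
    refine intervalIntegral.intervalIntegral_pos_of_pos_on (hfc.intervalIntegrable _ _) ?_ (by linarith)
    intro v hv
    have : v ^ 2 < 1 := by nlinarith [hv.1, hv.2]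
    exact Real.rpow_pos_of_pos (by linarith) _
  -- the key inequality for `y < 1`
  have hkey : ∀ y, 0 < y → y < 1 →
      ((n : ℝ) + 1) * (omega n * I y / M) ^ θ * Q ≤ RHS := by
    intro y hy0 hy1
    have hIy := hIpos y hy0 hy1
    set σ : ℝ := (omega n * I y / M) ^ θ with hσ
    have hA : 0 < omega n * I y / M := by positivity
    have hσpos : 0 < σ := Real.rpow_pos_of_pos hA _
    have hσpow : σ ^ (n + 1) = omega n * I y / M := by
      rw [hσ, hθ]
      have := Real.rpow_inv_natCast_pow hA.le (n := n + 1) (by omega)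
      simpa [one_div] using this
    have hweight : ∀ v, weight n σ 0 v = omega n * (1 - v ^ 2) ^ ((n : ℝ) / 2) / σ ^ (n + 1) := by
      intro v
      simp [weight]
    have hmass : ∫ v in (-y)..y, weight n σ 0 v = ∫ x, g x := by
      simp only [hweight]
      rw [intervalIntegral.integral_div, intervalIntegral.integral_const_mul, hσpow]
      show omega n * I y / (omega n * I y / M) = M
      field_simp
    obtain ⟨u, humono, hucont, hurange, ⟨t₀, ht₀⟩, hcv, hmain⟩ :=
      step hn J ha hg hgc hg0 le_rfl hσpos hy0 hy1 hmass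
    simp only [zero_mul, sub_zero] at hmain
    have hu0 : Continuous (fun x : Fin (n + 1) → ℝ => u (x 0)) := hucont.comp (continuous_apply 0)
    have hcc : Continuous (fieldDiv a 0) := continuous_fieldDiv ha 0
    -- the mean of `u` vanishes
    have hmean : ∫ x, u (x 0) * g x = 0 := by
      have h1 := hcv (fun v => v) continuous_id
      rw [h1]
      have hodd : ∀ v, -v * weight n σ 0 (-v) = -(v * weight n σ 0 v) := by
        intro v
        simp [hweight]
      have h2 := intervalIntegral.integral_comp_neg (a := -y) (b := y)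
        (fun v => v * weight n σ 0 v)
      simp only [neg_neg, hodd] at h2
      rw [intervalIntegral.integral_neg] at h2
      linarith
    -- the divergence term is nonnegative
    set p : Fin (n + 1) → ℝ := consP t₀ 0 with hp
    have hE : ∀ x, fieldDiv a 0 p * (u (x 0) * g x) ≤ g x * (fieldDiv a 0 x * u (x 0)) := by
      intro x
      have hgx := hg0 x
      rcases le_total t₀ (x 0) with h | h
      · have hu1 : 0 ≤ u (x 0) := by rw [← ht₀]; exact humono h
        have hc1 : fieldDiv a 0 p ≤ fieldDiv a 0 x :=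
          ha.mono 0 p x (fun k hk => absurd hk (Fin.not_lt_zero k)) h
        nlinarith [mul_nonneg hgx hu1, mul_le_mul_of_nonneg_right hc1 (mul_nonneg hgx hu1)]
      · have hu1 : u (x 0) ≤ 0 := by rw [← ht₀]; exact humono h
        have hc1 : fieldDiv a 0 x ≤ fieldDiv a 0 p :=
          ha.mono 0 x p (fun k hk => absurd hk (Fin.not_lt_zero k)) h
        nlinarith [mul_nonneg hgx (neg_nonneg.2 hu1),
          mul_le_mul_of_nonneg_right hc1 (mul_nonneg hgx (neg_nonneg.2 hu1))]
    have hint1 : Integrable (fun x => fieldDiv a 0 p * (u (x 0) * g x)) :=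
      ((hu0.mul hgcont).integrable_of_hasCompactSupport hgc.mul_left).const_mul _
    have hint2 : Integrable (fun x => g x * (fieldDiv a 0 x * u (x 0))) :=
      (hgcont.mul (hcc.mul hu0)).integrable_of_hasCompactSupport hgc.mul_right
    have hint3 : Integrable (fun x => g x * (((n : ℝ) + 1) * σ * g x ^ (1 / ((n : ℝ) + 1)))) := by
      have := hQint.const_mul (((n : ℝ) + 1) * σ)
      refine this.congr (Eventually.of_forall fun x => ?_)
      simp only [hθ]
      ring
    have hEint : 0 ≤ ∫ x, g x * (fieldDiv a 0 x * u (x 0)) := by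
      have := integral_mono hint1 hint2 hE
      rw [integral_const_mul, hmean, mul_zero] at this
      exact this
    -- put things together
    have hsplit : ∫ x, g x * (((n : ℝ) + 1) * σ * g x ^ (1 / ((n : ℝ) + 1)) +
        fieldDiv a 0 x * u (x 0)) = ((n : ℝ) + 1) * σ * Q + ∫ x, g x * (fieldDiv a 0 x * u (x 0)) := by
      simp only [mul_add]
      rw [integral_add hint3 hint2]
      congr 1
      rw [hQ, ← integral_const_mul]
      refine integral_congr_ae (Eventually.of_forall fun x => ?_)
      simp only [hθ]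
      ring
    rw [hsplit] at hmain
    linarith
  -- the limit `y → 1`
  have hlim : Tendsto (fun y => ((n : ℝ) + 1) * (omega n * I y / M) ^ θ * Q) (𝓝[<] 1)
      (𝓝 (((n : ℝ) + 1) * (omega (n + 1) / M) ^ θ * Q)) := by
    have h1 : I 1 = ∫ v in (-1 : ℝ)..1, (1 - v ^ 2) ^ ((n : ℝ) / 2) := rfl
    have h2 : omega n * I 1 / M = omega (n + 1) / M := by
      rw [h1, omega_succ hn]
    have hcont : Continuous (fun y => ((n : ℝ) + 1) * (omega n * I y / M) ^ θ * Q) := by
      refine (continuous_const.mul (Continuous.rpow_const ?_ ?_)).mul continuous_const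
      · exact (continuous_const.mul hIcont).div_const _
      · intro y; right; exact hθpos.le
    have := hcont.continuousAt (x := 1)
    have h3 := this.tendsto.mono_left (nhdsWithin_le_nhds (s := Iio 1))
    simp only [h2] at h3
    exact h3
  have hfin : ((n : ℝ) + 1) * (omega (n + 1) / M) ^ θ * Q ≤ RHS := by
    refine le_of_tendsto hlim ?_
    have : Ioo (0 : ℝ) 1 ∈ 𝓝[<] (1 : ℝ) := Ioo_mem_nhdsLT one_pos
    filter_upwards [this] with y hy
    exact hkey y hy.1 hy.2
  have hωs := omega_pos (n + 1)
  have hdiv : (omega (n + 1) / M) ^ θ = omega (n + 1) ^ θ * M ^ (-θ) := by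
    rw [div_eq_mul_inv, Real.mul_rpow hωs.le (inv_nonneg.2 hM0), Real.rpow_neg hM0, Real.inv_rpow hM0]
  rw [hdiv] at hfin
  simp only [hθ']
  push_cast
  calc ((n : ℝ) + 1) * omega (n + 1) ^ θ * M ^ (-θ) * Q
      = ((n : ℝ) + 1) * (omega (n + 1) ^ θ * M ^ (-θ)) * Q := by ring
    _ ≤ RHS := hfin

/-- The inequality holds in every dimension. -/
theorem jform : ∀ n : ℕ, 1 ≤ n → JForm n := by
  intro n hn
  induction n, hn using Nat.le_induction with
  | base => exact jform_one
  | succ k hk ih => exact jform_succ hk ih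

end Vale.Agent.Lib.P219
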