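import Vale.Agent.Lib.P219.Step
import Vale.Agent.Lib.P219.Wallis

/-! The slices of a model ball: the integrals of `weight` over `[-1, 1]`. -/

open MeasureTheory Set Filter Topology

namespace Vale.Agent.Lib.P219

/-- `cs_b (r) = cosh (b r)`. -/
noncomputable def cs (b r : ℝ) : ℝ := Real.cosh (b * r)

lemma sn_hasDerivAt (b r : ℝ) : HasDerivAt (sn b) (cs b r) r := by
  unfold sn cs
  by_cases hb : b = 0
  · subst hb
    have : (fun r : ℝ => if (0:ℝ) = 0 then r else Real.sinh (0 * r) / 0) = fun r => r := by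
      funext r; simp
    rw [this]
    simpa using hasDerivAt_id' r
  · simp only [hb, if_false]
    have h1 : HasDerivAt (fun r => b * r) b r := by
      simpa using (hasDerivAt_id r).const_mul b
    have h2 := (Real.hasDerivAt_sinh (b * r)).comp r h1
    have h3 := h2.div_const b
    have h4 : Real.cosh (b * r) * b / b = Real.cosh (b * r) := by field_simp
    rw [h4] at h3
    exact h3

lemma cs_hasDerivAt (b r : ℝ) : HasDerivAt (cs b) (b ^ 2 * sn b r) r := by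
  unfold sn cs
  have h1 : HasDerivAt (fun r => b * r) b r := by
    simpa using (hasDerivAt_id r).const_mul b
  have h2 := (Real.hasDerivAt_cosh (b * r)).comp r h1
  by_cases hb : b = 0
  · subst hb
    have : (fun r : ℝ => Real.cosh (0 * r)) = fun _ => 1 := by
      funext r; simp
    rw [this]
    simpa using hasDerivAt_const r (1:ℝ)
  · simp only [hb, if_false]
    have h4 : b ^ 2 * (Real.sinh (b * r) / b) = Real.sinh (b * r) * b := by field_simp
    rw [h4]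
    exact h2

lemma continuous_sn (b : ℝ) : Continuous (sn b) :=
  continuous_iff_continuousAt.2 fun r => (sn_hasDerivAt b r).continuousAt

lemma continuous_cs (b : ℝ) : Continuous (cs b) :=
  continuous_iff_continuousAt.2 fun r => (cs_hasDerivAt b r).continuousAt

lemma cs_sq_sub (b r : ℝ) : cs b r ^ 2 - b ^ 2 * sn b r ^ 2 = 1 := by
  unfold sn cs
  by_cases hb : b = 0
  · subst hb
    simp
  · simp only [hb, if_false]
    have := Real.cosh_sq (b * r)
    field_simp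
    nlinarith

lemma cs_pos (b r : ℝ) : 0 < cs b r := Real.cosh_pos _

lemma sn_zero (b : ℝ) : sn b 0 = 0 := by
  unfold sn
  by_cases hb : b = 0 <;> simp [hb]

lemma sn_pos {b r : ℝ} (hb : 0 ≤ b) (hr : 0 < r) : 0 < sn b r := by
  unfold sn
  by_cases hb0 : b = 0
  · simp [hb0, hr]
  · simp only [hb0, if_false]
    have hbpos : 0 < b := lt_of_le_of_ne hb (Ne.symm hb0)
    exact div_pos (Real.sinh_pos_iff.2 (mul_pos hbpos hr)) hbpos

lemma sn_nonneg {b r : ℝ} (hb : 0 ≤ b) (hr : 0 ≤ r) : 0 ≤ sn b r := by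
  rcases hr.eq_or_lt with h | h
  · rw [← h, sn_zero]
  · exact (sn_pos hb h).le

lemma self_le_sn {b r : ℝ} (hb : 0 ≤ b) (hr : 0 ≤ r) : r ≤ sn b r := by
  unfold sn
  by_cases hb0 : b = 0
  · simp [hb0]
  · simp only [hb0, if_false]
    have hbpos : 0 < b := lt_of_le_of_ne hb (Ne.symm hb0)
    rw [le_div_iff₀ hbpos]
    have := Real.self_le_sinh_iff.2 (mul_nonneg hbpos.le hr)
    linarith

/-- The parameter `σ = cs / sn`. -/
noncomputable def sigmaOf (b r : ℝ) : ℝ := cs b r / sn b r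

lemma sigmaOf_sub {b r : ℝ} (hb : 0 ≤ b) (hr : 0 < r) :
    (sigmaOf b r ^ 2 - b ^ 2) * sn b r ^ 2 = 1 := by
  have hs := sn_pos hb hr
  unfold sigmaOf
  have := cs_sq_sub b r
  field_simp
  linarith

lemma b_lt_sigmaOf {b r : ℝ} (hb : 0 ≤ b) (hr : 0 < r) : b < sigmaOf b r := by
  have hs := sn_pos hb hr
  have hc := cs_pos b r
  have hq := cs_sq_sub b r
  unfold sigmaOf
  rw [lt_div_iff₀ hs]
  nlinarith [mul_nonneg hb hs.le]

lemma sigmaOf_hasDerivAt {b r : ℝ} (hb : 0 ≤ b) (hr : 0 < r) :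
    HasDerivAt (sigmaOf b) (-1 / sn b r ^ 2) r := by
  have hs := sn_pos hb hr
  have h := (cs_hasDerivAt b r).div (sn_hasDerivAt b r) hs.ne'
  have h2 : (b ^ 2 * sn b r * sn b r - cs b r * cs b r) / sn b r ^ 2 = -1 / sn b r ^ 2 := by
    congr 1
    have := cs_sq_sub b r
    nlinarith
  rw [h2] at h
  exact h

/-- The total mass of the density `(1 - v²)^(n/2)`. -/
noncomputable def betaInt (n : ℕ) : ℝ := ∫ v in (-1 : ℝ)..1, (1 - v ^ 2) ^ ((n : ℝ) / 2)

section Mobius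

variable {n : ℕ} {σ b S₀ : ℝ}

lemma continuous_base_rpow (n : ℕ) : Continuous (fun v : ℝ => (1 - v ^ 2) ^ ((n : ℝ) / 2)) := by
  refine Continuous.rpow_const (by fun_prop) ?_
  intro v; right; positivity

/-- The change of variables by the Möbius map of `[-1, 1]` with `v = (w + a) / (1 + a w)`. -/
lemma mobius_subst (hb : 0 ≤ b) (hσ : b < σ) (hS₀ : 0 < S₀) (hS : (σ ^ 2 - b ^ 2) * S₀ ^ 2 = 1)
    {G : ℝ → ℝ} (hG : ContinuousOn G (Icc (-1) 1)) :
    ∫ v in (-1 : ℝ)..1, G v =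
      ∫ w in (-1 : ℝ)..1, G ((w + b / σ) / (1 + b / σ * w)) * (1 / (σ * S₀ * (1 + b / σ * w))) ^ 2 := by
  have hσpos : 0 < σ := lt_of_le_of_lt hb hσ
  set a : ℝ := b / σ with ha
  have ha0 : 0 ≤ a := div_nonneg hb hσpos.le
  have ha1 : a < 1 := (div_lt_one hσpos).2 hσ
  have hAne : ∀ w ∈ Icc (-1 : ℝ) 1, 0 < 1 + a * w := by
    intro w hw
    nlinarith [hw.1, hw.2]
  have hkey : (1 - a ^ 2) * (σ * S₀) ^ 2 = 1 := by
    rw [ha]
    field_simp
    linarith
  have hderiv : ∀ w ∈ uIcc (-1 : ℝ) 1, HasDerivAt (fun w => (w + a) / (1 + a * w))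
      ((1 / (σ * S₀ * (1 + a * w))) ^ 2) w := by
    intro w hw
    rw [uIcc_of_le (by norm_num)] at hw
    have hA := hAne w hw
    have h1 : HasDerivAt (fun w : ℝ => w + a) 1 w := (hasDerivAt_id w).add_const a
    have h2 : HasDerivAt (fun w : ℝ => 1 + a * w) a w := by
      simpa using ((hasDerivAt_id w).const_mul a).const_add 1
    have h3 := h1.div h2 hA.ne'
    have h4 : (1 * (1 + a * w) - (w + a) * a) / (1 + a * w) ^ 2 =
        (1 / (σ * S₀ * (1 + a * w))) ^ 2 := by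
      have hne : σ * S₀ ≠ 0 := by positivity
      field_simp
      have : (1 - a ^ 2) * (σ * S₀) ^ 2 = 1 := hkey
      nlinarith
    rw [h4] at h3
    exact h3
  have hcont' : ContinuousOn (fun w => (1 / (σ * S₀ * (1 + a * w))) ^ 2) (uIcc (-1 : ℝ) 1) := by
    rw [uIcc_of_le (by norm_num)]
    refine ContinuousOn.pow ?_ 2
    refine ContinuousOn.div continuousOn_const (by fun_prop) ?_
    intro w hw
    have hA := hAne w hw
    positivity
  have himage : (fun w => (w + a) / (1 + a * w)) '' uIcc (-1 : ℝ) 1 ⊆ Icc (-1 : ℝ) 1 := by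
    rw [uIcc_of_le (by norm_num)]
    rintro _ ⟨w, hw, rfl⟩
    have hA := hAne w hw
    constructor
    · simp only []
      rw [le_div_iff₀ hA]
      nlinarith [hw.1, hw.2]
    · simp only []
      rw [div_le_one hA]
      nlinarith [hw.1, hw.2]
  have h := intervalIntegral.integral_comp_mul_deriv' (a := -1) (b := 1)
    (f := fun w => (w + a) / (1 + a * w)) (f' := fun w => (1 / (σ * S₀ * (1 + a * w))) ^ 2)
    (g := G) hderiv hcont' (hG.mono himage)
  have hm1 : (-1 + a) / (1 + a * (-1)) = -1 := by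
    have : 1 + a * (-1) ≠ 0 := by nlinarith
    rw [div_eq_iff this]
    ring
  have hp1 : (1 + a) / (1 + a * 1) = 1 := by
    have : 1 + a * 1 ≠ 0 := by nlinarith
    field_simp
  simp only [hm1, hp1] at h
  rw [← h]
  rfl

/-- The pointwise algebra of the Möbius substitution. -/
lemma mobius_alg {a σ S₀ w : ℝ} (hσ : 0 < σ) (hS₀ : 0 < S₀) (hA : 0 < 1 + a * w)
    (hkey : (1 - a ^ 2) * (σ * S₀) ^ 2 = 1) :
    (1 / (σ * S₀ * (1 + a * w))) ^ 2 = (1 - a ^ 2) / (1 + a * w) ^ 2 ∧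
    1 - ((w + a) / (1 + a * w)) ^ 2 = (1 - w ^ 2) * (1 / (σ * S₀ * (1 + a * w))) ^ 2 ∧
    σ - a * σ * ((w + a) / (1 + a * w)) = (1 / (σ * S₀ * (1 + a * w))) / S₀ := by
  have h0 : (1 / (σ * S₀ * (1 + a * w))) ^ 2 = (1 - a ^ 2) / (1 + a * w) ^ 2 := by
    rw [div_pow, mul_pow, one_pow, div_eq_div_iff (by positivity) (by positivity)]
    nlinarith [hkey]
  refine ⟨h0, ?_, ?_⟩
  · rw [h0, div_pow]
    have hne : (1 + a * w) ^ 2 ≠ 0 := by positivity
    have h3 : 1 - (w + a) ^ 2 / (1 + a * w) ^ 2 = ((1 + a * w) ^ 2 - (w + a) ^ 2) / (1 + a * w) ^ 2 := by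
      rw [sub_div, div_self hne]
    rw [h3, ← mul_div_assoc]
    congr 1
    ring
  · have h1 : σ * (1 - a ^ 2) = 1 / (σ * S₀ ^ 2) := by
      rw [eq_div_iff (by positivity)]
      nlinarith [hkey]
    have h2 : σ - a * σ * ((w + a) / (1 + a * w)) = σ * (1 - a ^ 2) / (1 + a * w) := by
      field_simp
      ring
    rw [h2, h1]
    field_simp

/-- The first closed formula. -/
lemma integral_weight_I1 (n : ℕ) (hb : 0 ≤ b) (hσ : b < σ) (hS₀ : 0 < S₀)
    (hS : (σ ^ 2 - b ^ 2) * S₀ ^ 2 = 1) :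
    ∫ v in (-1 : ℝ)..1, (1 - v ^ 2) ^ ((n : ℝ) / 2) / (σ - b * v) ^ (n + 2) =
      betaInt n * S₀ ^ (n + 2) := by
  have hσpos : 0 < σ := lt_of_le_of_lt hb hσ
  have hne : ∀ v ∈ Icc (-1 : ℝ) 1, 0 < σ - b * v := by
    intro v hv
    nlinarith [hv.1, hv.2]
  have hG : ContinuousOn (fun v : ℝ => (1 - v ^ 2) ^ ((n : ℝ) / 2) / (σ - b * v) ^ (n + 2))
      (Icc (-1) 1) := by
    refine ContinuousOn.div (continuous_base_rpow n).continuousOn (by fun_prop) ?_
    intro v hv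
    exact pow_ne_zero _ (hne v hv).ne'
  rw [mobius_subst hb hσ hS₀ hS hG]
  unfold betaInt
  rw [← intervalIntegral.integral_mul_const]
  refine intervalIntegral.integral_congr ?_
  intro w hw
  rw [uIcc_of_le (by norm_num)] at hw
  set a : ℝ := b / σ with ha
  have ha0 : 0 ≤ a := div_nonneg hb hσpos.le
  have ha1 : a < 1 := (div_lt_one hσpos).2 hσ
  have hA : 0 < 1 + a * w := by nlinarith [hw.1, hw.2]
  have hkey : (1 - a ^ 2) * (σ * S₀) ^ 2 = 1 := by
    rw [ha]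
    field_simp
    linarith
  have hb' : b = a * σ := by rw [ha]; field_simp
  beta_reduce
  obtain ⟨_, h1, h2⟩ := mobius_alg (w := w) hσpos hS₀ hA hkey
  rw [← hb'] at h2
  set t : ℝ := 1 / (σ * S₀ * (1 + a * w)) with ht
  have htpos : 0 < t := by positivity
  have hw1 : 0 ≤ 1 - w ^ 2 := by nlinarith [hw.1, hw.2]
  have h3 : ((1 - w ^ 2) * t ^ 2) ^ ((n : ℝ) / 2) = (1 - w ^ 2) ^ ((n : ℝ) / 2) * t ^ n := by
    rw [Real.mul_rpow hw1 (by positivity), ← Real.rpow_natCast t 2, ← Real.rpow_mul htpos.le,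
      ← Real.rpow_natCast t n]
    congr 2
    push_cast
    ring
  rw [h1, h2, h3, div_pow t S₀, pow_add t n 2]
  field_simp

/-- The second closed formula. -/
lemma integral_weight_I2 (n : ℕ) (hb : 0 ≤ b) (hσ : b < σ) (hS₀ : 0 < S₀)
    (hS : (σ ^ 2 - b ^ 2) * S₀ ^ 2 = 1) :
    ∫ v in (-1 : ℝ)..1, (1 - v ^ 2) ^ ((n : ℝ) / 2) * (((n : ℝ) + 1) * σ - b * v) /
        (σ - b * v) ^ (n + 1) = ((n : ℝ) + 1) * betaInt n * S₀ ^ n := by
  have hσpos : 0 < σ := lt_of_le_of_lt hb hσ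
  have hne : ∀ v ∈ Icc (-1 : ℝ) 1, 0 < σ - b * v := by
    intro v hv
    nlinarith [hv.1, hv.2]
  have hG : ContinuousOn (fun v : ℝ => (1 - v ^ 2) ^ ((n : ℝ) / 2) * (((n : ℝ) + 1) * σ - b * v) /
      (σ - b * v) ^ (n + 1)) (Icc (-1) 1) := by
    refine ContinuousOn.div ((continuous_base_rpow n).continuousOn.mul (by fun_prop)) (by fun_prop) ?_
    intro v hv
    exact pow_ne_zero _ (hne v hv).ne'
  rw [mobius_subst hb hσ hS₀ hS hG]
  set a : ℝ := b / σ with ha
  have ha0 : 0 ≤ a := div_nonneg hb hσpos.le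
  have ha1 : a < 1 := (div_lt_one hσpos).2 hσ
  have hAp : ∀ w ∈ Icc (-1 : ℝ) 1, 0 < 1 + a * w := by
    intro w hw
    nlinarith [hw.1, hw.2]
  have hkey : (1 - a ^ 2) * (σ * S₀) ^ 2 = 1 := by
    rw [ha]
    field_simp
    linarith
  -- the antiderivative
  set Θ : ℝ → ℝ := fun w => (1 - w ^ 2) ^ ((n : ℝ) / 2 + 1) / (1 + a * w) with hΘ
  have hΘderiv : ∀ w ∈ uIcc (-1 : ℝ) 1, HasDerivAt Θ
      ((1 - w ^ 2) ^ ((n : ℝ) / 2) * (-((n : ℝ) + 2) * w * (1 + a * w) - a * (1 - w ^ 2)) /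
        (1 + a * w) ^ 2) w := by
    intro w hw
    rw [uIcc_of_le (by norm_num)] at hw
    have hA := hAp w hw
    have hw1 : 0 ≤ 1 - w ^ 2 := by nlinarith [hw.1, hw.2]
    have h1 : HasDerivAt (fun w : ℝ => 1 - w ^ 2) (-(2 * w)) w := by
      have := ((hasDerivAt_id w).pow 2).const_sub 1
      simpa using this
    have h2 : HasDerivAt (fun w : ℝ => (1 - w ^ 2) ^ ((n : ℝ) / 2 + 1))
        (-(2 * w) * ((n : ℝ) / 2 + 1) * (1 - w ^ 2) ^ ((n : ℝ) / 2 + 1 - 1)) w :=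
      h1.rpow_const (Or.inr (by
        have : (0 : ℝ) ≤ (n : ℝ) / 2 := by positivity
        linarith))
    have h3 : HasDerivAt (fun w : ℝ => 1 + a * w) a w := by
      simpa using ((hasDerivAt_id w).const_mul a).const_add 1
    have h4 := h2.div h3 hA.ne'
    have h5 : (1 - w ^ 2) ^ ((n : ℝ) / 2 + 1) = (1 - w ^ 2) ^ ((n : ℝ) / 2) * (1 - w ^ 2) :=
      Real.rpow_add_one' hw1 (by positivity)
    have h6 : (n : ℝ) / 2 + 1 - 1 = (n : ℝ) / 2 := by ring
    rw [h5, h6] at h4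
    have h7 : (1 - w ^ 2) ^ ((n : ℝ) / 2) * (-((n : ℝ) + 2) * w * (1 + a * w) - a * (1 - w ^ 2)) /
        (1 + a * w) ^ 2 =
        (-(2 * w) * ((n : ℝ) / 2 + 1) * (1 - w ^ 2) ^ ((n : ℝ) / 2) * (1 + a * w) -
          (1 - w ^ 2) ^ ((n : ℝ) / 2) * (1 - w ^ 2) * a) / (1 + a * w) ^ 2 := by
      congr 1
      ring
    rw [h7]
    exact h4
  have hΘcont : IntervalIntegrable (fun w => (1 - w ^ 2) ^ ((n : ℝ) / 2) *
      (-((n : ℝ) + 2) * w * (1 + a * w) - a * (1 - w ^ 2)) / (1 + a * w) ^ 2) volume (-1) 1 := by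
    refine ContinuousOn.intervalIntegrable ?_
    rw [uIcc_of_le (by norm_num)]
    refine ContinuousOn.div ((continuous_base_rpow n).continuousOn.mul (by fun_prop)) (by fun_prop) ?_
    intro w hw
    exact pow_ne_zero _ (hAp w hw).ne'
  have hFTC := intervalIntegral.integral_eq_sub_of_hasDerivAt hΘderiv hΘcont
  have hΘ1 : Θ 1 = 0 := by
    simp only [hΘ]
    have : (1 : ℝ) - 1 ^ 2 = 0 := by norm_num
    rw [this, Real.zero_rpow (by positivity)]
    simp
  have hΘm1 : Θ (-1) = 0 := by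
    simp only [hΘ]
    have : (1 : ℝ) - (-1) ^ 2 = 0 := by norm_num
    rw [this, Real.zero_rpow (by positivity)]
    simp
  rw [hΘ1, hΘm1, sub_zero] at hFTC
  -- identify the integrand
  have hpt : ∀ w ∈ uIcc (-1 : ℝ) 1,
      (1 - ((w + a) / (1 + a * w)) ^ 2) ^ ((n : ℝ) / 2) *
        (((n : ℝ) + 1) * σ - b * ((w + a) / (1 + a * w))) / (σ - b * ((w + a) / (1 + a * w))) ^ (n + 1) *
        (1 / (σ * S₀ * (1 + a * w))) ^ 2 =
      S₀ ^ n * (((n : ℝ) + 1) * (1 - w ^ 2) ^ ((n : ℝ) / 2) + a * ((1 - w ^ 2) ^ ((n : ℝ) / 2) *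
        (-((n : ℝ) + 2) * w * (1 + a * w) - a * (1 - w ^ 2)) / (1 + a * w) ^ 2)) := by
    intro w hw
    rw [uIcc_of_le (by norm_num)] at hw
    have hA := hAp w hw
    have hb' : b = a * σ := by rw [ha]; field_simp
    obtain ⟨ht2', h1, h2⟩ := mobius_alg (w := w) hσpos hS₀ hA hkey
    rw [← hb'] at h2
    set t : ℝ := 1 / (σ * S₀ * (1 + a * w)) with ht
    have htpos : 0 < t := by positivity
    have hw1 : 0 ≤ 1 - w ^ 2 := by nlinarith [hw.1, hw.2]
    have h3 : ((1 - w ^ 2) * t ^ 2) ^ ((n : ℝ) / 2) = (1 - w ^ 2) ^ ((n : ℝ) / 2) * t ^ n := by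
      rw [Real.mul_rpow hw1 (by positivity), ← Real.rpow_natCast t 2, ← Real.rpow_mul htpos.le,
        ← Real.rpow_natCast t n]
      congr 2
      push_cast
      ring
    have h4 : ((n : ℝ) + 1) * σ - b * ((w + a) / (1 + a * w)) = (n : ℝ) * σ + t / S₀ := by
      rw [← h2]; ring
    rw [h1, h2, h3, h4]
    set P := (1 - w ^ 2) ^ ((n : ℝ) / 2) with hP
    have htS : t * (σ * S₀) = 1 / (1 + a * w) := by
      rw [ht]; field_simp
    have ht2 : t ^ 2 = (1 - a ^ 2) / (1 + a * w) ^ 2 := ht2'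
    have hLHS : P * t ^ n * ((n : ℝ) * σ + t / S₀) / (t / S₀) ^ (n + 1) * t ^ 2 =
        P * S₀ ^ n * ((n : ℝ) / (1 + a * w) + (1 - a ^ 2) / (1 + a * w) ^ 2) := by
      have h5 : (n : ℝ) * (t * (σ * S₀)) = (n : ℝ) / (1 + a * w) := by
        rw [htS]; ring
      rw [← ht2, ← h5, div_pow t S₀, pow_succ t n]
      field_simp
      ring
    rw [hLHS]
    field_simp
    ring
  have hint1 : IntervalIntegrable (fun w : ℝ => (1 - w ^ 2) ^ ((n : ℝ) / 2)) volume (-1) 1 :=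
    (continuous_base_rpow n).intervalIntegrable _ _
  rw [intervalIntegral.integral_congr hpt, intervalIntegral.integral_const_mul,
    intervalIntegral.integral_add (hint1.const_mul _) (hΘcont.const_mul _),
    intervalIntegral.integral_const_mul, intervalIntegral.integral_const_mul, hFTC]
  unfold betaInt
  ring

end Mobius

end Vale.Agent.Lib.P219
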