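import Vale.Agent.Lib.P219.Model

/-! The volume and area of a model ball in terms of `weight`. -/

open MeasureTheory Set Filter Topology
open scoped Interval

namespace Vale.Agent.Lib.P219

lemma continuous_sn_pow (b : ℝ) (n : ℕ) : Continuous (fun t => sn b t ^ n) :=
  (continuous_sn b).pow n

lemma modelVol_hasDerivAt (n : ℕ) (b r : ℝ) :
    HasDerivAt (modelVol (n + 1) b) (modelArea (n + 1) b r) r := by
  unfold modelVol modelArea
  have h := intervalIntegral.integral_hasDerivAt_right
    (((continuous_sn_pow b (n + 1 - 1)).intervalIntegrable 0 r))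
    ((continuous_sn_pow b (n + 1 - 1)).stronglyMeasurableAtFilter _ _)
    ((continuous_sn_pow b (n + 1 - 1)).continuousAt)
  exact h.const_mul _

lemma continuous_modelVol (n : ℕ) (b : ℝ) : Continuous (modelVol (n + 1) b) :=
  continuous_iff_continuousAt.2 fun r => (modelVol_hasDerivAt n b r).continuousAt

lemma modelVol_zero (n : ℕ) (b : ℝ) : modelVol (n + 1) b 0 = 0 := by
  unfold modelVol
  simp

lemma continuous_modelArea (n : ℕ) (b : ℝ) : Continuous (modelArea (n + 1) b) := by
  unfold modelArea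
  exact continuous_const.mul (continuous_sn_pow b _)

lemma modelArea_zero (n : ℕ) (hn : 1 ≤ n) (b : ℝ) : modelArea (n + 1) b 0 = 0 := by
  unfold modelArea
  have : n + 1 - 1 ≠ 0 := by omega
  rw [sn_zero, zero_pow this, mul_zero]

lemma modelArea_pos (n : ℕ) {b r : ℝ} (hb : 0 ≤ b) (hr : 0 < r) : 0 < modelArea (n + 1) b r := by
  unfold modelArea
  have h1 := sn_pos hb hr
  have h2 := omega_pos (n + 1)
  positivity

lemma strictMonoOn_modelVol (n : ℕ) {b : ℝ} (hb : 0 ≤ b) :
    StrictMonoOn (modelVol (n + 1) b) (Ici 0) := by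
  refine strictMonoOn_of_deriv_pos (convex_Ici 0) (continuous_modelVol n b).continuousOn ?_
  intro r hr
  rw [interior_Ici] at hr
  rw [(modelVol_hasDerivAt n b r).deriv]
  exact modelArea_pos n hb hr

/-- The model volume is unbounded. -/
lemma exists_modelVol_gt (n : ℕ) {b : ℝ} (hb : 0 ≤ b) (V : ℝ) :
    ∃ r, 0 < r ∧ V < modelVol (n + 1) b r := by
  have hω := omega_pos (n + 1)
  set C : ℝ := ((n + 1 : ℕ) : ℝ) * omega (n + 1) with hC
  have hCpos : 0 < C := by positivity
  refine ⟨max 2 (V / C + 2), by positivity, ?_⟩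
  set r := max 2 (V / C + 2) with hr
  have hr2 : 2 ≤ r := le_max_left _ _
  have hrV : V / C + 2 ≤ r := le_max_right _ _
  have h1 : (r - 1) ≤ ∫ t in (0 : ℝ)..r, sn b t ^ (n + 1 - 1) := by
    have hsplit := intervalIntegral.integral_add_adjacent_intervals (μ := volume)
      ((continuous_sn_pow b (n + 1 - 1)).intervalIntegrable 0 1)
      ((continuous_sn_pow b (n + 1 - 1)).intervalIntegrable 1 r)
    rw [← hsplit]
    have h0 : 0 ≤ ∫ t in (0 : ℝ)..1, sn b t ^ (n + 1 - 1) :=
      intervalIntegral.integral_nonneg (μ := volume) (by norm_num)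
        (fun t ht => pow_nonneg (sn_nonneg hb ht.1) _)
    have h2 : ∫ t in (1 : ℝ)..r, (1 : ℝ) ≤ ∫ t in (1 : ℝ)..r, sn b t ^ (n + 1 - 1) := by
      refine intervalIntegral.integral_mono_on (by linarith) (by simp)
        ((continuous_sn_pow b (n + 1 - 1)).intervalIntegrable 1 r) ?_
      intro t ht
      have := self_le_sn hb (show (0 : ℝ) ≤ t by linarith [ht.1])
      exact one_le_pow₀ (by linarith [ht.1])
    have h3 : ∫ t in (1 : ℝ)..r, (1 : ℝ) = r - 1 := by simp
    linarith
  unfold modelVol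
  have h4 : V / C + 1 ≤ r - 1 := by linarith
  have h5 : V / C < r - 1 := by linarith
  calc V = C * (V / C) := by field_simp
    _ < C * (r - 1) := mul_lt_mul_of_pos_left h5 hCpos
    _ ≤ C * ∫ t in (0 : ℝ)..r, sn b t ^ (n + 1 - 1) := mul_le_mul_of_nonneg_left h1 hCpos.le

/-- The radius of the model ball with a given volume. -/
lemma exists_radius (n : ℕ) {b V : ℝ} (hb : 0 ≤ b) (hV : 0 ≤ V) :
    ∃ r, 0 ≤ r ∧ modelVol (n + 1) b r = V ∧
      modelProfile (n + 1) b V = modelArea (n + 1) b r ∧ (0 < V → 0 < r) := by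
  obtain ⟨R, hR, hRV⟩ := exists_modelVol_gt n hb V
  have hmem : V ∈ Icc (modelVol (n + 1) b 0) (modelVol (n + 1) b R) := by
    rw [modelVol_zero]
    exact ⟨hV, hRV.le⟩
  obtain ⟨r, hr, hrV⟩ := intermediate_value_Icc hR.le (continuous_modelVol n b).continuousOn hmem
  refine ⟨r, hr.1, hrV, ?_, ?_⟩
  · unfold modelProfile
    have hset : {t | 0 ≤ t ∧ modelVol (n + 1) b t ≤ V} = Icc 0 r := by
      ext t
      constructor
      · rintro ⟨h0, h1⟩
        refine ⟨h0, ?_⟩
        by_contra hlt
        push Not at hlt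
        have := strictMonoOn_modelVol n hb hr.1 h0 hlt
        linarith
      · rintro ⟨h0, h1⟩
        refine ⟨h0, ?_⟩
        rw [← hrV]
        exact (strictMonoOn_modelVol n hb).monotoneOn h0 hr.1 h1
    rw [hset, csSup_Icc hr.1]
  · intro hVpos
    rcases hr.1.eq_or_lt with h | h
    · rw [← h, modelVol_zero] at hrV
      linarith
    · exact h

section Derivative

variable {n : ℕ} {b : ℝ}

/-- The integral of `(1 - v²)^(n/2) / (τ - b v)^(n+1)` as a function of `τ`. -/
noncomputable def betaP (n : ℕ) (b τ : ℝ) : ℝ :=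
  ∫ v in (-1 : ℝ)..1, (1 - v ^ 2) ^ ((n : ℝ) / 2) / (τ - b * v) ^ (n + 1)

lemma rpow_base_le_one {v : ℝ} (n : ℕ) (hv : v ∈ Icc (-1 : ℝ) 1) :
    (1 - v ^ 2) ^ ((n : ℝ) / 2) ≤ 1 := by
  have h1 : 0 ≤ 1 - v ^ 2 := by nlinarith [hv.1, hv.2]
  have h2 : 1 - v ^ 2 ≤ 1 := by nlinarith [sq_nonneg v]
  exact Real.rpow_le_one h1 h2 (by positivity)

lemma betaP_hasDerivAt (hb : 0 ≤ b) {τ : ℝ} (hτ : b < τ) :
    HasDerivAt (betaP n b)
      (-((n : ℝ) + 1) * ∫ v in (-1 : ℝ)..1, (1 - v ^ 2) ^ ((n : ℝ) / 2) / (τ - b * v) ^ (n + 2)) τ := by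
  set δ : ℝ := (τ - b) / 2 with hδ
  have hδpos : 0 < δ := by
    rw [hδ]; linarith
  have hbase : ∀ σ, b + δ < σ → ∀ v ∈ Icc (-1 : ℝ) 1, δ < σ - b * v := by
    intro σ hσ v hv
    nlinarith [hv.1, hv.2]
  have hs : Ioi (b + δ) ∈ 𝓝 τ := Ioi_mem_nhds (by rw [hδ]; linarith)
  set F : ℝ → ℝ → ℝ := fun σ v => (1 - v ^ 2) ^ ((n : ℝ) / 2) / (σ - b * v) ^ (n + 1) with hF
  set F' : ℝ → ℝ → ℝ := fun σ v => -((n : ℝ) + 1) * ((1 - v ^ 2) ^ ((n : ℝ) / 2) / (σ - b * v) ^ (n + 2))
    with hF'
  have hcontF : ∀ σ, b + δ < σ → ContinuousOn (F σ) (uIcc (-1 : ℝ) 1) := by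
    intro σ hσ
    rw [uIcc_of_le (by norm_num)]
    refine ContinuousOn.div (continuous_base_rpow n).continuousOn (by fun_prop) ?_
    intro v hv
    exact pow_ne_zero _ (lt_trans hδpos (hbase σ hσ v hv)).ne'
  have hcontF' : ContinuousOn (F' τ) (uIcc (-1 : ℝ) 1) := by
    rw [uIcc_of_le (by norm_num)]
    refine ContinuousOn.mul continuousOn_const ?_
    refine ContinuousOn.div (continuous_base_rpow n).continuousOn (by fun_prop) ?_
    intro v hv
    have hτ' : b + δ < τ := by rw [hδ]; linarith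
    exact pow_ne_zero _ (lt_trans hδpos (hbase τ hτ' v hv)).ne'
  have hi : Ι (-1 : ℝ) 1 ⊆ Icc (-1 : ℝ) 1 := by
    rw [uIoc_of_le (by norm_num)]
    exact Ioc_subset_Icc_self
  have h := intervalIntegral.hasDerivAt_integral_of_dominated_loc_of_deriv_le
    (μ := volume) (a := (-1 : ℝ)) (b := 1) (F := F) (F' := F') (x₀ := τ) (s := Ioi (b + δ))
    (bound := fun _ => ((n : ℝ) + 1) / δ ^ (n + 2)) hs ?_ ?_ ?_ ?_ ?_ ?_
  · have h2 := h.2
    have h3 : ∫ t in (-1 : ℝ)..1, F' τ t =
        -((n : ℝ) + 1) * ∫ v in (-1 : ℝ)..1, (1 - v ^ 2) ^ ((n : ℝ) / 2) / (τ - b * v) ^ (n + 2) := by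
      simp only [hF']
      rw [intervalIntegral.integral_const_mul]
    rw [h3] at h2
    exact h2
  · filter_upwards [hs] with σ hσ
    have := (hcontF σ hσ).mono (show Ι (-1 : ℝ) 1 ⊆ uIcc (-1 : ℝ) 1 from uIoc_subset_uIcc)
    exact this.aestronglyMeasurable measurableSet_uIoc
  · exact (hcontF τ (by rw [hδ]; linarith)).intervalIntegrable
  · have := hcontF'.mono (show Ι (-1 : ℝ) 1 ⊆ uIcc (-1 : ℝ) 1 from uIoc_subset_uIcc)
    exact this.aestronglyMeasurable measurableSet_uIoc
  · refine Eventually.of_forall ?_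
    intro v hv σ hσ
    have hv' := hi hv
    have hσ' : b + δ < σ := hσ
    have h1 := hbase σ hσ' v hv'
    have h2 : 0 ≤ (1 - v ^ 2) ^ ((n : ℝ) / 2) := Real.rpow_nonneg (by nlinarith [hv'.1, hv'.2]) _
    have h3 := rpow_base_le_one n hv'
    simp only [hF']
    rw [Real.norm_eq_abs, abs_mul, abs_neg, abs_of_nonneg (by positivity : (0 : ℝ) ≤ (n : ℝ) + 1),
      abs_of_nonneg (by have := lt_trans hδpos h1; positivity)]
    rw [div_eq_mul_inv ((n : ℝ) + 1)]
    refine mul_le_mul_of_nonneg_left ?_ (by positivity)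
    rw [← one_div]
    refine div_le_div₀ (by norm_num) h3 (by positivity) ?_
    exact pow_le_pow_left₀ hδpos.le h1.le _
  · exact intervalIntegrable_const
  · refine Eventually.of_forall ?_
    intro v hv σ hσ
    have hv' := hi hv
    have hσ' : b + δ < σ := hσ
    have h1 := hbase σ hσ' v hv'
    have hne : σ - b * v ≠ 0 := (lt_trans hδpos h1).ne'
    have h2 : HasDerivAt (fun σ : ℝ => σ - b * v) 1 σ := (hasDerivAt_id' σ).sub_const _
    have h3 := h2.pow (n + 1)
    have h4 := (hasDerivAt_const σ ((1 - v ^ 2) ^ ((n : ℝ) / 2))).div h3 (pow_ne_zero _ hne)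
    have h6 : F' σ v = (0 * (σ - b * v) ^ (n + 1) - (1 - v ^ 2) ^ ((n : ℝ) / 2) *
        (((n + 1 : ℕ) : ℝ) * (σ - b * v) ^ (n + 1 - 1) * 1)) / ((σ - b * v) ^ (n + 1)) ^ 2 := by
      simp only [hF', Nat.add_sub_cancel]
      generalize (1 - v ^ 2) ^ ((n : ℝ) / 2) = P at *
      generalize σ - b * v = S at *
      push_cast
      rw [pow_succ S (n + 1), pow_succ S n]
      field_simp
      ring
    rw [h6]
    exact h4

end Derivative


section Identities

variable {n : ℕ} {b : ℝ}

lemma betaInt_eq {n : ℕ} (hn : 1 ≤ n) : omega (n + 1) = omega n * betaInt n := omega_succ hn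

/-- The area of the model sphere as an integral over the slices. -/
theorem integral_area (hn : 1 ≤ n) (hb : 0 ≤ b) {r : ℝ} (hr : 0 < r) :
    ∫ v in (-1 : ℝ)..1, (((n : ℝ) + 1) * sigmaOf b r - b * v) * weight n (sigmaOf b r) b v =
      modelArea (n + 1) b r := by
  have hs := sn_pos hb hr
  have h := integral_weight_I2 n hb (b_lt_sigmaOf hb hr) hs (sigmaOf_sub hb hr)
  have h1 : ∀ v : ℝ, (((n : ℝ) + 1) * sigmaOf b r - b * v) * weight n (sigmaOf b r) b v =
      omega n * ((1 - v ^ 2) ^ ((n : ℝ) / 2) * (((n : ℝ) + 1) * sigmaOf b r - b * v) /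
        (sigmaOf b r - b * v) ^ (n + 1)) := by
    intro v
    unfold weight
    ring
  simp only [h1]
  rw [intervalIntegral.integral_const_mul, h]
  unfold modelArea
  rw [betaInt_eq hn]
  simp only [Nat.add_sub_cancel]
  push_cast
  ring

/-- The volume of the model ball is the integral of `weight`. -/
theorem integral_vol (hn : 1 ≤ n) (hb : 0 ≤ b) {r : ℝ} (hr : 0 < r) :
    ∫ v in (-1 : ℝ)..1, weight n (sigmaOf b r) b v = modelVol (n + 1) b r := by
  have hrewrite : ∀ r : ℝ, ∫ v in (-1 : ℝ)..1, weight n (sigmaOf b r) b v =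
      omega n * betaP n b (sigmaOf b r) := by
    intro r
    unfold betaP weight
    rw [← intervalIntegral.integral_const_mul]
    refine intervalIntegral.integral_congr (fun v _ => ?_)
    ring
  rw [hrewrite]
  set D : ℝ → ℝ := fun r => omega n * betaP n b (sigmaOf b r) - modelVol (n + 1) b r with hD
  have hDderiv : ∀ r, 0 < r → HasDerivAt D 0 r := by
    intro r hr
    have hs := sn_pos hb hr
    have h1 := (betaP_hasDerivAt (n := n) hb (b_lt_sigmaOf hb hr)).comp r (sigmaOf_hasDerivAt hb hr)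
    rw [integral_weight_I1 n hb (b_lt_sigmaOf hb hr) hs (sigmaOf_sub hb hr)] at h1
    have h2 := (h1.const_mul (omega n)).sub (modelVol_hasDerivAt n b r)
    have h3 : omega n * (-((n : ℝ) + 1) * (betaInt n * sn b r ^ (n + 2)) * (-1 / sn b r ^ 2)) -
        modelArea (n + 1) b r = 0 := by
      unfold modelArea
      rw [betaInt_eq hn]
      simp only [Nat.add_sub_cancel]
      push_cast
      rw [pow_add]
      field_simp
      ring
    rw [h3] at h2
    exact h2
  obtain ⟨c, hc⟩ := isOpen_Ioi.exists_is_const_of_deriv_eq_zero (isPreconnected_Ioi (a := (0 : ℝ)))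
    (fun r hr => (hDderiv r hr).differentiableAt.differentiableWithinAt)
    (fun r hr => (hDderiv r hr).deriv)
  -- the limit at zero
  set h : ℝ → ℝ := fun r => omega n * (2 * (sn b r * (cs b r + b * sn b r)) ^ (n + 1)) +
    modelVol (n + 1) b r with hh
  have hhcont : Continuous h := by
    simp only [hh]
    have := continuous_sn b
    have := continuous_cs b
    have := continuous_modelVol n b
    fun_prop
  have hh0 : h 0 = 0 := by
    simp only [hh, sn_zero, modelVol_zero]
    simp
  have hbound : ∀ r, 0 < r → |D r| ≤ h r := by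
    intro r hr
    have hs := sn_pos hb hr
    have hω := omega_pos n
    have hσ := b_lt_sigmaOf hb hr
    set σ := sigmaOf b r with hσdef
    set q : ℝ := sn b r * (cs b r + b * sn b r) with hq
    have hqpos : 0 < q := by
      have := cs_pos b r
      have := mul_nonneg hb hs.le
      positivity
    have hq1 : q * (σ - b) = 1 := by
      rw [hq, hσdef]
      unfold sigmaOf
      have := cs_sq_sub b r
      field_simp
      nlinarith
    have hvol := (continuous_modelVol n b)
    have hVnn : 0 ≤ modelVol (n + 1) b r := by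
      have := (strictMonoOn_modelVol n hb).monotoneOn (mem_Ici.2 le_rfl) (mem_Ici.2 hr.le) hr.le
      rwa [modelVol_zero] at this
    have hP0 : 0 ≤ betaP n b σ := by
      unfold betaP
      refine intervalIntegral.integral_nonneg (by norm_num) (fun v hv => ?_)
      have h1 : 0 ≤ (1 - v ^ 2) ^ ((n : ℝ) / 2) := Real.rpow_nonneg (by nlinarith [hv.1, hv.2]) _
      have h2 : 0 < σ - b * v := by nlinarith [hv.1, hv.2]
      positivity
    have hP1 : betaP n b σ ≤ 2 * q ^ (n + 1) := by
      unfold betaP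
      have hcont : ContinuousOn (fun v : ℝ => (1 - v ^ 2) ^ ((n : ℝ) / 2) / (σ - b * v) ^ (n + 1))
          (uIcc (-1 : ℝ) 1) := by
        rw [uIcc_of_le (by norm_num)]
        refine ContinuousOn.div (continuous_base_rpow n).continuousOn (by fun_prop) ?_
        intro v hv
        have h2 : 0 < σ - b * v := by nlinarith [hv.1, hv.2]
        positivity
      have hmono := intervalIntegral.integral_mono_on (μ := volume) (a := (-1 : ℝ)) (b := 1)
        (f := fun v : ℝ => (1 - v ^ 2) ^ ((n : ℝ) / 2) / (σ - b * v) ^ (n + 1))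
        (g := fun _ => q ^ (n + 1)) (by norm_num) hcont.intervalIntegrable intervalIntegrable_const ?_
      · simp only [intervalIntegral.integral_const, smul_eq_mul] at hmono
        norm_num at hmono
        exact hmono
      · intro v hv
        have h1 := rpow_base_le_one n hv
        have h2 : σ - b ≤ σ - b * v := by nlinarith [hv.1, hv.2]
        have h3 : 0 < σ - b := by linarith
        have h4 : q = 1 / (σ - b) := by
          field_simp
          linarith
        rw [h4, div_pow, one_pow]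
        exact div_le_div₀ (by norm_num) h1 (by positivity) (pow_le_pow_left₀ h3.le h2 _)
    simp only [hD, hh]
    rw [abs_le]
    have hA : 0 ≤ omega n * betaP n b σ := by positivity
    have hB : omega n * betaP n b σ ≤ omega n * (2 * q ^ (n + 1)) :=
      mul_le_mul_of_nonneg_left hP1 hω.le
    have hC : 0 ≤ omega n * (2 * q ^ (n + 1)) := by positivity
    constructor <;> linarith
  have hc0 : c = 0 := by
    have hlim : Tendsto h (𝓝[>] 0) (𝓝 0) := by
      have := hhcont.tendsto 0
      rw [hh0] at this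
      exact this.mono_left nhdsWithin_le_nhds
    have hle : |c| ≤ 0 := by
      refine ge_of_tendsto hlim ?_
      filter_upwards [self_mem_nhdsWithin] with r hr
      rw [← hc r hr]
      exact hbound r hr
    exact abs_nonpos_iff.1 hle
  have := hc r hr
  rw [hc0] at this
  simp only [hD] at this
  linarith

end Identities

end Vale.Agent.Lib.P219
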