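import Vale.Agent.Lib.P219.ModelVol
import Vale.Agent.Lib.P219.Euclid

/-! The comparison with the isoperimetric profile of the space forms. -/

open MeasureTheory Set Filter Topology

namespace Vale.Agent.Lib.P219

variable {n : ℕ} {σ b : ℝ}

lemma weight_nonneg (n : ℕ) (hσ : b < σ) (hb : 0 ≤ b) {v : ℝ} (hv : v ∈ Icc (-1 : ℝ) 1) :
    0 ≤ weight n σ b v := by
  unfold weight
  have h1 : 0 ≤ (1 - v ^ 2) ^ ((n : ℝ) / 2) := Real.rpow_nonneg (by nlinarith [hv.1, hv.2]) _
  have h2 : 0 < σ - b * v := by nlinarith [hv.1, hv.2]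
  have h3 := omega_pos n
  positivity

lemma continuousOn_weight (n : ℕ) (hσ : b < σ) (hb : 0 ≤ b) :
    ContinuousOn (weight n σ b) (Icc (-1) 1) := by
  unfold weight
  refine ContinuousOn.div (continuousOn_const.mul (continuous_base_rpow n).continuousOn)
    (by fun_prop) ?_
  intro v hv
  have h2 : 0 < σ - b * v := by nlinarith [hv.1, hv.2]
  exact pow_ne_zero _ h2.ne'

/-- The first moment of the density. -/
lemma first_moment (n : ℕ) (hσ : b < σ) (hb : 0 ≤ b) {y : ℝ} (hy0 : 0 ≤ y) (hy1 : y ≤ 1) :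
    0 ≤ ∫ v in (-y)..y, v * weight n σ b v := by
  have hcont : ContinuousOn (fun v => v * weight n σ b v) (Icc (-1) 1) :=
    continuousOn_id.mul (continuousOn_weight n hσ hb)
  have hsub : ∀ {c d : ℝ}, -y ≤ c → c ≤ y → -y ≤ d → d ≤ y → IntervalIntegrable
      (fun v => v * weight n σ b v) volume c d := by
    intro c d h1 h2 h3 h4
    refine (hcont.mono ?_).intervalIntegrable
    intro v hv
    rcases le_total c d with h | h
    · rw [uIcc_of_le h] at hv
      exact ⟨by linarith [hv.1], by linarith [hv.2]⟩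
    · rw [uIcc_of_ge h] at hv
      exact ⟨by linarith [hv.1], by linarith [hv.2]⟩
  rw [← intervalIntegral.integral_add_adjacent_intervals (b := 0)
    (hsub le_rfl (by linarith) (by linarith) hy0) (hsub (by linarith) hy0 (by linarith) le_rfl)]
  have h1 : ∫ v in (-y)..0, v * weight n σ b v = ∫ v in (0 : ℝ)..y, (-v) * weight n σ b (-v) := by
    have := intervalIntegral.integral_comp_neg (a := (0 : ℝ)) (b := y)
      (fun v => v * weight n σ b v)
    simp only [neg_zero] at this
    rw [this]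
  rw [h1]
  have hsym : IntervalIntegrable (fun v => (-v) * weight n σ b (-v)) volume 0 y := by
    refine ContinuousOn.intervalIntegrable ?_
    rw [uIcc_of_le hy0]
    refine ContinuousOn.mul continuousOn_neg ?_
    refine (continuousOn_weight n hσ hb).comp continuousOn_neg ?_
    intro v hv
    exact ⟨by simp only [neg_le_neg_iff]; linarith [hv.2], by linarith [hv.1]⟩
  rw [← intervalIntegral.integral_add hsym (hsub (by linarith) hy0 (by linarith) le_rfl)]
  refine intervalIntegral.integral_nonneg hy0 (fun v hv => ?_)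
  have hσ0 : 0 < σ := lt_of_le_of_lt hb hσ
  have hv1 : v ≤ 1 := by linarith [hv.2]
  have hv0 : 0 ≤ v := hv.1
  have h2 : weight n σ b (-v) ≤ weight n σ b v := by
    unfold weight
    have hneg : (-v) ^ 2 = v ^ 2 := by ring
    rw [hneg]
    have h3 : 0 < σ - b * v := by nlinarith
    have h4 : σ - b * v ≤ σ - b * (-v) := by nlinarith [mul_nonneg hb hv0]
    have hn0 : 0 ≤ omega n * (1 - v ^ 2) ^ ((n : ℝ) / 2) := by
      have := omega_pos n
      have h5 : 0 ≤ (1 - v ^ 2) ^ ((n : ℝ) / 2) := Real.rpow_nonneg (by nlinarith) _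
      positivity
    exact div_le_div_of_nonneg_left hn0 (by positivity) (pow_le_pow_left₀ h3.le h4 _)
  nlinarith

/-- The first moment of the density vanishes when `b = 0`. -/
lemma first_moment_zero (n : ℕ) {σ : ℝ} (hσ : 0 < σ) {y : ℝ} (hy0 : 0 ≤ y) (hy1 : y ≤ 1) :
    ∫ v in (-y)..y, v * weight n σ 0 v = 0 := by
  have hcont : ContinuousOn (fun v => v * weight n σ 0 v) (Icc (-1) 1) :=
    continuousOn_id.mul (continuousOn_weight n hσ le_rfl)
  have hsub : ∀ {c d : ℝ}, -y ≤ c → c ≤ y → -y ≤ d → d ≤ y → IntervalIntegrable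
      (fun v => v * weight n σ 0 v) volume c d := by
    intro c d h1 h2 h3 h4
    refine (hcont.mono ?_).intervalIntegrable
    intro v hv
    rcases le_total c d with h | h
    · rw [uIcc_of_le h] at hv
      exact ⟨by linarith [hv.1], by linarith [hv.2]⟩
    · rw [uIcc_of_ge h] at hv
      exact ⟨by linarith [hv.1], by linarith [hv.2]⟩
  rw [← intervalIntegral.integral_add_adjacent_intervals (b := 0)
    (hsub le_rfl (by linarith) (by linarith) hy0) (hsub (by linarith) hy0 (by linarith) le_rfl)]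
  have h1 : ∫ v in (-y)..0, v * weight n σ 0 v = ∫ v in (0 : ℝ)..y, (-v) * weight n σ 0 (-v) := by
    have := intervalIntegral.integral_comp_neg (a := (0 : ℝ)) (b := y)
      (fun v => v * weight n σ 0 v)
    simp only [neg_zero] at this
    rw [this]
  rw [h1]
  have h2 : ∀ v : ℝ, (-v) * weight n σ 0 (-v) = -(v * weight n σ 0 v) := by
    intro v
    unfold weight
    have hneg : (-v) ^ 2 = v ^ 2 := by ring
    rw [hneg]
    simp
  simp only [h2]
  rw [intervalIntegral.integral_neg]
  ring

/-- Choice of the slice parameter by the intermediate value theorem. -/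
lemma exists_slice_parameter (n : ℕ) (hσ : b < σ) (hb : 0 ≤ b) {M : ℝ} (hM0 : 0 < M)
    (hM1 : M < ∫ v in (-1 : ℝ)..1, weight n σ b v) :
    ∃ y, 0 < y ∧ y < 1 ∧ ∫ v in (-y)..y, weight n σ b v = M := by
  set Φ : ℝ → ℝ := fun y => ∫ v in (-y)..y, weight n σ b v with hΦ
  have hint : IntegrableOn (weight n σ b) (uIcc (-1) 1) := by
    rw [uIcc_of_le (by norm_num)]
    exact (continuousOn_weight n hσ hb).integrableOn_Icc
  have hprim := intervalIntegral.continuousOn_primitive_interval hint
  rw [uIcc_of_le (by norm_num)] at hprim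
  have hsplit : ∀ y ∈ Icc (0 : ℝ) 1, Φ y = (∫ v in (-1 : ℝ)..y, weight n σ b v) -
      ∫ v in (-1 : ℝ)..(-y), weight n σ b v := by
    intro y hy
    have hsub : ∀ {c d : ℝ}, c ∈ Icc (-1 : ℝ) 1 → d ∈ Icc (-1 : ℝ) 1 → IntervalIntegrable
        (weight n σ b) volume c d := by
      intro c d hc hd
      refine ((continuousOn_weight n hσ hb).mono ?_).intervalIntegrable
      exact uIcc_subset_Icc hc hd
    have := intervalIntegral.integral_add_adjacent_intervals
      (hsub (c := -1) (d := -y) ⟨le_rfl, by norm_num⟩ ⟨by linarith [hy.2], by linarith [hy.1]⟩)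
      (hsub (c := -y) (d := y) ⟨by linarith [hy.2], by linarith [hy.1]⟩ ⟨by linarith [hy.1], hy.2⟩)
    simp only [hΦ]
    linarith
  have hcont : ContinuousOn Φ (Icc 0 1) := by
    have h1 : ContinuousOn (fun y : ℝ => (∫ v in (-1 : ℝ)..y, weight n σ b v) -
        ∫ v in (-1 : ℝ)..(-y), weight n σ b v) (Icc 0 1) := by
      refine ContinuousOn.sub (hprim.mono ?_) (hprim.comp continuousOn_neg ?_)
      · intro y hy
        exact ⟨by linarith [hy.1], hy.2⟩
      · intro y hy
        exact ⟨by simp only [neg_le_neg_iff]; exact hy.2, by linarith [hy.1]⟩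
    exact h1.congr hsplit
  have hΦ0 : Φ 0 = 0 := by simp [hΦ]
  have hΦ1 : Φ 1 = ∫ v in (-1 : ℝ)..1, weight n σ b v := rfl
  have hmem : M ∈ Ioo (Φ 0) (Φ 1) := by
    rw [hΦ0, hΦ1]
    exact ⟨hM0, hM1⟩
  obtain ⟨y, hy, hyM⟩ := intermediate_value_Ioo (by norm_num) hcont hmem
  exact ⟨y, hy.1, hy.2, hyM⟩

/-- Integrability facts on subintervals for continuous multiples of the density. -/
lemma intervalIntegrable_mul_weight (n : ℕ) (hσ : b < σ) (hb : 0 ≤ b) {H : ℝ → ℝ}
    (hH : Continuous H) {c d : ℝ} (hc : c ∈ Icc (-1 : ℝ) 1) (hd : d ∈ Icc (-1 : ℝ) 1) :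
    IntervalIntegrable (fun v => H v * weight n σ b v) volume c d := by
  refine ((hH.continuousOn.mul (continuousOn_weight n hσ hb)).mono ?_).intervalIntegrable
  exact uIcc_subset_Icc hc hd

lemma intervalIntegrable_weight (n : ℕ) (hσ : b < σ) (hb : 0 ≤ b)
    {c d : ℝ} (hc : c ∈ Icc (-1 : ℝ) 1) (hd : d ∈ Icc (-1 : ℝ) 1) :
    IntervalIntegrable (weight n σ b) volume c d :=
  ((continuousOn_weight n hσ hb).mono (uIcc_subset_Icc hc hd)).intervalIntegrable

/-- The tail estimate of the area integral. -/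
lemma area_tail (n : ℕ) (hσ : b < σ) (hb : 0 ≤ b) {y : ℝ} (hy0 : 0 ≤ y) (hy1 : y ≤ 1) :
    (∫ v in (-1 : ℝ)..1, (((n : ℝ) + 1) * σ - b * v) * weight n σ b v) -
      (((n : ℝ) + 1) * σ + b) * ((∫ v in (-1 : ℝ)..1, weight n σ b v) - ∫ v in (-y)..y, weight n σ b v) ≤
    ∫ v in (-y)..y, (((n : ℝ) + 1) * σ - b * v) * weight n σ b v := by
  have hσ0 : 0 < σ := lt_of_le_of_lt hb hσ
  set H : ℝ → ℝ := fun v => ((n : ℝ) + 1) * σ - b * v with hH
  have hHc : Continuous H := by simp only [hH]; fun_prop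
  set C : ℝ := ((n : ℝ) + 1) * σ + b with hC
  set G : ℝ → ℝ := fun v => (C - H v) * weight n σ b v with hG
  have hGc : Continuous (fun v => C - H v) := continuous_const.sub hHc
  have hm1 : (-1 : ℝ) ∈ Icc (-1 : ℝ) 1 := ⟨le_rfl, by norm_num⟩
  have hp1 : (1 : ℝ) ∈ Icc (-1 : ℝ) 1 := ⟨by norm_num, le_rfl⟩
  have hmy : -y ∈ Icc (-1 : ℝ) 1 := ⟨by linarith, by linarith⟩
  have hpy : y ∈ Icc (-1 : ℝ) 1 := ⟨by linarith, hy1⟩
  have hGint : ∀ {c d : ℝ}, c ∈ Icc (-1 : ℝ) 1 → d ∈ Icc (-1 : ℝ) 1 →
      IntervalIntegrable G volume c d :=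
    fun hc hd => intervalIntegrable_mul_weight n hσ hb hGc hc hd
  have hGnn : ∀ v ∈ Icc (-1 : ℝ) 1, 0 ≤ G v := by
    intro v hv
    refine mul_nonneg ?_ (weight_nonneg n hσ hb hv)
    simp only [hH, hC]
    nlinarith [hv.1, hv.2, hb]
  -- the integral of `G` over `[-y, y]` is at most the one over `[-1, 1]`
  have h1 : ∫ v in (-y)..y, G v ≤ ∫ v in (-1 : ℝ)..1, G v := by
    have h2 := intervalIntegral.integral_add_adjacent_intervals (hGint hm1 hmy) (hGint hmy hp1)
    have h3 := intervalIntegral.integral_add_adjacent_intervals (hGint hmy hpy) (hGint hpy hp1)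
    have h4 : 0 ≤ ∫ v in (-1 : ℝ)..(-y), G v :=
      intervalIntegral.integral_nonneg (by linarith) (fun v hv => hGnn v ⟨hv.1, by linarith [hv.2]⟩)
    have h5 : 0 ≤ ∫ v in y..1, G v :=
      intervalIntegral.integral_nonneg hy1 (fun v hv => hGnn v ⟨by linarith [hv.1], hv.2⟩)
    linarith
  have hexp : ∀ {c d : ℝ}, c ∈ Icc (-1 : ℝ) 1 → d ∈ Icc (-1 : ℝ) 1 → ∫ v in c..d, G v =
      C * (∫ v in c..d, weight n σ b v) - ∫ v in c..d, H v * weight n σ b v := by
    intro c d hc hd
    rw [← intervalIntegral.integral_const_mul, ← intervalIntegral.integral_sub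
      ((intervalIntegrable_weight n hσ hb hc hd).const_mul C)
      (intervalIntegrable_mul_weight n hσ hb hHc hc hd)]
    refine intervalIntegral.integral_congr (fun v _ => ?_)
    simp only [hG]
    ring
  rw [hexp hmy hpy, hexp hm1 hp1] at h1
  linarith

/-- The estimate for one truncation. -/
theorem level_bound (hn : 1 ≤ n) {a : Fin (n + 1) → Fin (n + 1) → (Fin (n + 1) → ℝ) → ℝ}
    (ha : IsMonotoneFrame a) (hb : 0 ≤ b) (hdiv : 0 < b → ∀ x, (n : ℝ) * b ≤ fieldDiv a 0 x)
    {g : (Fin (n + 1) → ℝ) → ℝ} (hg : ContDiff ℝ 1 g) (hgc : HasCompactSupport g)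
    (hg0 : ∀ x, 0 ≤ g x) (hg1 : ∀ x, g x ≤ 1) {r : ℝ} (hr : 0 < r)
    (hM0 : 0 < ∫ x, g x) (hMr : ∫ x, g x < modelVol (n + 1) b r)
    {S : Set (Fin (n + 1) → ℝ)} (hS : MeasurableSet S) (hSfin : volume S < ⊤)
    (hSg : ∀ x, x ∉ S → g x = 0 ∨ g x = 1) :
    modelArea (n + 1) b r -
        (((n : ℝ) + 1) * sigmaOf b r + b) * (modelVol (n + 1) b r - ∫ x, g x) -
        ((n : ℝ) + 1) * (sigmaOf b r + b) * (volume S).toReal ≤ ∫ x, gradNorm a g x := by
  classical
  set σ := sigmaOf b r with hσdef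
  have hσ : b < σ := b_lt_sigmaOf hb hr
  have hσ0 : 0 < σ := lt_of_le_of_lt hb hσ
  set M := ∫ x, g x with hMdef
  have hvol := integral_vol (n := n) hn hb hr
  have harea := integral_area (n := n) hn hb hr
  rw [← hσdef] at hvol harea
  obtain ⟨y, hy0, hy1, hyM⟩ := exists_slice_parameter n hσ hb hM0 (by rw [hvol]; exact hMr)
  obtain ⟨u, humono, hucont, hubd, ⟨t₀, ht₀⟩, hpush, hmain⟩ := step hn (jform n hn) ha hg hgc hg0
    hb hσ hy0 hy1 hyM
  set θ : ℝ := 1 / ((n : ℝ) + 1) with hθ
  have hθpos : 0 < θ := by positivity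
  have hgcont : Continuous g := hg.continuous
  have hcdiv : Continuous (fieldDiv a 0) := continuous_fieldDiv ha 0
  have hu0 : Continuous (fun x : Fin (n + 1) → ℝ => u (x 0)) :=
    hucont.comp (continuous_apply 0)
  -- the divergence of `e_0` depends only on `x 0`
  have hdivmono : ∀ x x' : Fin (n + 1) → ℝ, x 0 ≤ x' 0 → fieldDiv a 0 x ≤ fieldDiv a 0 x' :=
    fun x x' h => ha.mono 0 x x' (fun k hk => absurd hk (Fin.not_lt_zero k)) h
  set x₀ : Fin (n + 1) → ℝ := fun _ => t₀ with hx₀
  set c₀ : ℝ := fieldDiv a 0 x₀ with hc₀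
  have hsign : ∀ x : Fin (n + 1) → ℝ, c₀ * u (x 0) ≤ fieldDiv a 0 x * u (x 0) := by
    intro x
    rcases le_total (x 0) t₀ with h | h
    · have h1 : u (x 0) ≤ 0 := ht₀ ▸ humono h
      have h2 : fieldDiv a 0 x ≤ c₀ := hdivmono x x₀ h
      nlinarith
    · have h1 : 0 ≤ u (x 0) := ht₀ ▸ humono h
      have h2 : c₀ ≤ fieldDiv a 0 x := hdivmono x₀ x h
      nlinarith
  -- the pointwise bound
  set H : ℝ → ℝ := fun v => ((n : ℝ) + 1) * (σ - b * v) + c₀ * v with hH
  have hHc : Continuous H := by simp only [hH]; fun_prop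
  set Cs : ℝ := ((n : ℝ) + 1) * (σ + b) with hCs
  have hCspos : 0 < Cs := by positivity
  have hpt : ∀ x, H (u (x 0)) * g x - S.indicator (fun _ => Cs) x ≤
      g x * (((n : ℝ) + 1) * (σ - b * u (x 0)) * g x ^ θ + fieldDiv a 0 x * u (x 0)) := by
    intro x
    have hubd1 := (hubd (x 0)).1
    have hubd2 := (hubd (x 0)).2
    set U := u (x 0) with hU
    have hUle : b * U ≤ b * 1 := mul_le_mul_of_nonneg_left (by linarith) hb
    have hUge : -b ≤ b * U := by nlinarith
    have hpos : 0 < σ - b * U := by linarith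
    have hgx := hg0 x
    have hdivterm : g x * (c₀ * U) ≤ g x * (fieldDiv a 0 x * U) :=
      mul_le_mul_of_nonneg_left (hsign x) hgx
    have hpowterm : ((n : ℝ) + 1) * (σ - b * U) * g x - S.indicator (fun _ => Cs) x ≤
        g x * (((n : ℝ) + 1) * (σ - b * U) * g x ^ θ) := by
      by_cases hx : x ∈ S
      · simp only [indicator, hx, if_true]
        have h1 : ((n : ℝ) + 1) * (σ - b * U) * g x ≤ Cs := by
          have h2 : ((n : ℝ) + 1) * (σ - b * U) ≤ Cs := by
            simp only [hCs]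
            refine mul_le_mul_of_nonneg_left (by linarith) (by positivity)
          calc ((n : ℝ) + 1) * (σ - b * U) * g x ≤ ((n : ℝ) + 1) * (σ - b * U) * 1 :=
                mul_le_mul_of_nonneg_left (hg1 x) (by positivity)
            _ ≤ Cs := by linarith
        have h3 : 0 ≤ g x * (((n : ℝ) + 1) * (σ - b * U) * g x ^ θ) := by
          have := Real.rpow_nonneg hgx θ
          positivity
        linarith
      · simp only [indicator, hx, if_false, sub_zero]
        rcases hSg x hx with h | h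
        · rw [h]; simp
        · rw [h]; simp
    simp only [hH]
    nlinarith
  -- integrate
  have hiu : Integrable (fun x => H (u (x 0)) * g x) :=
    ((hHc.comp hu0).mul hgcont).integrable_of_hasCompactSupport hgc.mul_left
  have hind : Integrable (S.indicator (fun _ => Cs) : (Fin (n + 1) → ℝ) → ℝ) := by
    rw [integrable_indicator_iff hS]
    exact integrableOn_const hSfin.ne
  have hir : Integrable (fun x => g x * (((n : ℝ) + 1) * (σ - b * u (x 0)) * g x ^ θ +
      fieldDiv a 0 x * u (x 0))) := by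
    refine Continuous.integrable_of_hasCompactSupport ?_ hgc.mul_right
    refine hgcont.mul (Continuous.add ?_ (hcdiv.mul hu0))
    refine Continuous.mul ?_ (hgcont.rpow_const (fun x => Or.inr hθpos.le))
    exact continuous_const.mul (continuous_const.sub (continuous_const.mul hu0))
  have hint : ∫ x, (H (u (x 0)) * g x - S.indicator (fun _ => Cs) x) ≤
      ∫ x, g x * (((n : ℝ) + 1) * (σ - b * u (x 0)) * g x ^ θ + fieldDiv a 0 x * u (x 0)) :=
    integral_mono (hiu.sub hind) hir hpt
  rw [integral_sub hiu hind, hpush H hHc, integral_indicator_const _ hS] at hint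
  have hmain' : ∫ x, g x * (((n : ℝ) + 1) * (σ - b * u (x 0)) * g x ^ θ +
      fieldDiv a 0 x * u (x 0)) ≤ ∫ x, gradNorm a g x := hmain
  -- the moment term
  have hm1 : (-1 : ℝ) ∈ Icc (-1 : ℝ) 1 := ⟨le_rfl, by norm_num⟩
  have hmy : -y ∈ Icc (-1 : ℝ) 1 := ⟨by linarith, by linarith⟩
  have hpy : y ∈ Icc (-1 : ℝ) 1 := ⟨by linarith, hy1.le⟩
  have hdecomp : ∫ v in (-y)..y, H v * weight n σ b v =
      (∫ v in (-y)..y, (((n : ℝ) + 1) * σ - b * v) * weight n σ b v) +
        (c₀ - (n : ℝ) * b) * ∫ v in (-y)..y, v * weight n σ b v := by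
    have h1 : IntervalIntegrable (fun v => (((n : ℝ) + 1) * σ - b * v) * weight n σ b v) volume
        (-y) y := intervalIntegrable_mul_weight n hσ hb (by fun_prop) hmy hpy
    have h2 : IntervalIntegrable (fun v => v * weight n σ b v) volume (-y) y :=
      intervalIntegrable_mul_weight n hσ hb (H := fun v => v) continuous_id hmy hpy
    rw [← intervalIntegral.integral_const_mul, ← intervalIntegral.integral_add h1 (h2.const_mul _)]
    refine intervalIntegral.integral_congr (fun v _ => ?_)
    simp only [hH]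
    ring
  have hmoment : 0 ≤ (c₀ - (n : ℝ) * b) * ∫ v in (-y)..y, v * weight n σ b v := by
    rcases hb.eq_or_lt with hb0 | hb0
    · rw [← hb0]
      rw [first_moment_zero n (by rw [← hb0] at hσ; exact hσ) hy0.le hy1.le]
      simp
    · refine mul_nonneg ?_ (first_moment n hσ hb hy0.le hy1.le)
      have := hdiv hb0 x₀
      linarith
  have htail := area_tail n hσ hb hy0.le hy1.le
  rw [harea, hvol, hyM] at htail
  have hreal : volume.real S • Cs = Cs * (volume S).toReal := by
    rw [smul_eq_mul, mul_comm]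
    rfl
  rw [hreal] at hint
  linarith

/-- The mass of a truncation is at least the volume of the higher level set. -/
lemma volume_le_integral_levelFn' {k : ℕ} {f : (Fin k → ℝ) → ℝ} (hf : ContDiff ℝ 1 f)
    (hfc : HasCompactSupport f) {s δ : ℝ} (hs : 0 < s) (hδ : 0 < δ) :
    (volume {x | s + δ ≤ f x}).toReal ≤ ∫ x, levelFn f s δ x := by
  have hm := measurableSet_le_level hf.continuous (s + δ)
  have hfin := volume_le_level_lt_top hfc (show 0 < s + δ by linarith)
  have hc : Continuous (levelFn f s δ) := (contDiff_levelFn hf s δ).continuous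
  have hcs := hasCompactSupport_levelFn hfc hs.le hδ
  have hi : Integrable (levelFn f s δ) := hc.integrable_of_hasCompactSupport hcs
  have hind : Integrable ({x | s + δ ≤ f x}.indicator (fun _ => (1 : ℝ))) := by
    rw [integrable_indicator_iff hm]
    exact integrableOn_const hfin.ne
  have hval : ∫ x, {x | s + δ ≤ f x}.indicator (fun _ => (1 : ℝ)) x =
      (volume {x | s + δ ≤ f x}).toReal := by
    rw [integral_indicator hm]
    simp [Measure.real]
  rw [← hval]
  refine integral_mono hind hi (fun x => ?_)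
  by_cases hx : s + δ ≤ f x
  · simp only [indicator, mem_ofPred_eq, hx, if_true]
    rw [levelFn_eq_one hδ hx]
  · simp only [indicator, mem_ofPred_eq, hx, if_false]
    exact levelFn_nonneg f s δ x

lemma continuousAt_sigmaOf {b r : ℝ} (hb : 0 ≤ b) (hr : 0 < r) : ContinuousAt (sigmaOf b) r :=
  (sigmaOf_hasDerivAt hb hr).continuousAt

/-- The isoperimetric inequality of the model space in its integrated form. -/
theorem profile_lintegral (hn : 1 ≤ n) {a : Fin (n + 1) → Fin (n + 1) → (Fin (n + 1) → ℝ) → ℝ}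
    (ha : IsMonotoneFrame a) (hb : 0 ≤ b) (hdiv : 0 < b → ∀ x, (n : ℝ) * b ≤ fieldDiv a 0 x)
    {f : (Fin (n + 1) → ℝ) → ℝ} (hf : ContDiff ℝ 1 f) (hfc : HasCompactSupport f)
    (hf0 : ∀ x, 0 ≤ f x) :
    ∫⁻ s in Ioi (0 : ℝ), ENNReal.ofReal (modelProfile (n + 1) b (volume {x | s < f x}).toReal) ≤
      ENNReal.ofReal (∫ x, gradNorm a f x) := by
  refine lintegral_of_liminf_level ha hf hfc hf0 (fun s hs => ?_)
  set V := (volume {x | s < f x}).toReal with hV
  have hV0 : 0 ≤ V := ENNReal.toReal_nonneg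
  obtain ⟨r₀, hr₀, hVr, hprof, hrpos⟩ := exists_radius n hb hV0
  rw [hprof]
  rcases hV0.eq_or_lt with hVz | hVpos
  · -- the level set is null
    have hr0 : r₀ = 0 := by
      rcases hr₀.eq_or_lt with h | h
      · exact h.symm
      · have := strictMonoOn_modelVol n hb (mem_Ici.2 le_rfl) (mem_Ici.2 hr₀) h
        rw [modelVol_zero, hVr, ← hVz] at this
        exact absurd this (lt_irrefl _)
    rw [hr0, modelArea_zero n hn, ENNReal.ofReal_zero]
    exact bot_le
  have hr0pos : 0 < r₀ := hrpos hVpos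
  set L := liminf (fun m : ℕ =>
    ENNReal.ofReal (∫ x, gradNorm a (levelFn f s (1 / ((m : ℝ) + 1))) x)) atTop with hL
  set W : ℕ → ℝ := fun m => (volume {x | s + 1 / ((m : ℝ) + 1) ≤ f x}).toReal with hW
  have hWlim : Tendsto W atTop (𝓝 V) := tendsto_volume_level hfc hs
  have hWpos : ∀ᶠ m in atTop, 0 < W m := hWlim.eventually (lt_mem_nhds hVpos)
  set G : ℝ → ℝ := fun r => modelArea (n + 1) b r -
    (((n : ℝ) + 1) * sigmaOf b r + b) * (modelVol (n + 1) b r - V) with hG
  -- the estimate for `r > r₀`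
  have hstep : ∀ r, r₀ < r → ENNReal.ofReal (G r) ≤ L := by
    intro r hr
    have hrpos' : 0 < r := lt_trans hr0pos hr
    have hVlt : V < modelVol (n + 1) b r := by
      have := strictMonoOn_modelVol n hb (mem_Ici.2 hr₀) (mem_Ici.2 hrpos'.le) hr
      rwa [hVr] at this
    set σ := sigmaOf b r with hσ
    have hσb : b < σ := b_lt_sigmaOf hb hrpos'
    have hσ0 : 0 < σ := lt_of_le_of_lt hb hσb
    set C₁ : ℝ := ((n : ℝ) + 1) * σ + b with hC₁
    set C₂ : ℝ := ((n : ℝ) + 1) * (σ + b) with hC₂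
    have hC₁0 : 0 ≤ C₁ := by positivity
    set F : ℕ → ℝ := fun m => modelArea (n + 1) b r - C₁ * (modelVol (n + 1) b r - W m) -
      C₂ * (V - W m) with hF
    have hFlim : Tendsto F atTop (𝓝 (G r)) := by
      have h1 : Tendsto F atTop (𝓝 (modelArea (n + 1) b r - C₁ * (modelVol (n + 1) b r - V) -
          C₂ * (V - V))) := by
        refine Tendsto.sub (Tendsto.sub tendsto_const_nhds ?_) ?_
        · exact (tendsto_const_nhds.sub hWlim).const_mul _
        · exact (tendsto_const_nhds.sub hWlim).const_mul _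
      have h2 : modelArea (n + 1) b r - C₁ * (modelVol (n + 1) b r - V) - C₂ * (V - V) = G r := by
        simp only [hG]
        ring
      rwa [h2] at h1
    have hFle : ∀ᶠ m in atTop, F m ≤ ∫ x, gradNorm a (levelFn f s (1 / ((m : ℝ) + 1))) x := by
      filter_upwards [hWpos] with m hm
      have hδ : (0 : ℝ) < 1 / ((m : ℝ) + 1) := by positivity
      set δ : ℝ := 1 / ((m : ℝ) + 1) with hδdef
      set g := levelFn f s δ with hg
      have hMle : ∫ x, g x ≤ V := integral_levelFn_le hf hfc hs hδ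
      have hWle : W m ≤ ∫ x, g x := volume_le_integral_levelFn' hf hfc hs hδ
      set S : Set (Fin (n + 1) → ℝ) := {x | s < f x} \ {x | s + δ ≤ f x} with hS
      have hSm : MeasurableSet S :=
        (measurableSet_lt_level hf.continuous s).diff (measurableSet_le_level hf.continuous _)
      have hsub : {x | s + δ ≤ f x} ⊆ {x | s < f x} := by
        intro x hx
        have hx' : s + δ ≤ f x := hx
        show s < f x
        linarith
      have hfinV := volume_lt_level_lt_top hfc hs.le
      have hfinW := volume_le_level_lt_top hfc (show 0 < s + δ by linarith)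
      have hSfin : volume S < ⊤ := lt_of_le_of_lt (measure_mono sdiff_subset) hfinV
      have hSvol : (volume S).toReal = V - W m := by
        rw [hS, measure_sdiff hsub (measurableSet_le_level hf.continuous _).nullMeasurableSet
          hfinW.ne, ENNReal.toReal_sub_of_le (measure_mono hsub) hfinV.ne]
      have hSg : ∀ x, x ∉ S → g x = 0 ∨ g x = 1 := by
        intro x hx
        by_cases h1 : s < f x
        · right
          have h2 : s + δ ≤ f x := by
            by_contra h3
            exact hx ⟨h1, h3⟩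
          exact levelFn_eq_one hδ h2
        · left
          exact levelFn_eq_zero hδ (not_lt.1 h1)
      have hbound := level_bound (n := n) (b := b) hn ha hb hdiv (contDiff_levelFn hf s δ)
        (hasCompactSupport_levelFn hfc hs.le hδ) (levelFn_nonneg f s δ) (levelFn_le_one f s δ)
        hrpos' (lt_of_lt_of_le hm hWle) (lt_of_le_of_lt hMle hVlt) hSm hSfin hSg
      rw [hSvol] at hbound
      have hmono : C₁ * (modelVol (n + 1) b r - ∫ x, g x) ≤ C₁ * (modelVol (n + 1) b r - W m) :=
        mul_le_mul_of_nonneg_left (by linarith) hC₁0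
      simp only [hF]
      linarith
    have hlim := (ENNReal.continuous_ofReal.tendsto _).comp hFlim
    rw [hL, ← hlim.liminf_eq]
    refine liminf_le_liminf ?_
    filter_upwards [hFle] with m hm
    exact ENNReal.ofReal_le_ofReal hm
  -- letting `r` tend to `r₀`
  have hGcont : ContinuousAt G r₀ := by
    simp only [hG]
    have h1 := (continuous_modelArea n b).continuousAt (x := r₀)
    have h2 := (continuous_modelVol n b).continuousAt (x := r₀)
    have h3 := continuousAt_sigmaOf hb hr0pos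
    exact h1.sub ((((continuousAt_const.mul h3)).add continuousAt_const).mul (h2.sub continuousAt_const))
  have hG0 : G r₀ = modelArea (n + 1) b r₀ := by
    simp only [hG, hVr]
    ring
  have hlimG : Tendsto (fun r => ENNReal.ofReal (G r)) (𝓝[>] r₀)
      (𝓝 (ENNReal.ofReal (modelArea (n + 1) b r₀))) := by
    rw [← hG0]
    exact (ENNReal.continuous_ofReal.tendsto _).comp (hGcont.tendsto.mono_left nhdsWithin_le_nhds)
  refine le_of_tendsto hlimG ?_
  filter_upwards [self_mem_nhdsWithin] with r hr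
  exact hstep r hr

end Vale.Agent.Lib.P219
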