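import Vale.Agent.Lib.P219.Defs

/-! Slicing `ℝ^(n+1)` as `ℝ × ℝⁿ`. -/

open MeasureTheory Set

namespace Vale.Agent.Lib.P219

variable {n : ℕ}

/-- The point `(t, x')` of `ℝ^(n+1)`. -/
def consP (t : ℝ) (x' : Fin n → ℝ) : Fin (n + 1) → ℝ := Fin.cons t x'

@[simp] lemma consP_zero (t : ℝ) (x' : Fin n → ℝ) : consP t x' 0 = t := rfl

@[simp] lemma consP_succ (t : ℝ) (x' : Fin n → ℝ) (j : Fin n) : consP t x' j.succ = x' j := rfl

lemma consP_tail (x : Fin (n + 1) → ℝ) : consP (x 0) (Fin.tail x) = x := Fin.cons_self_tail x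

lemma tail_consP (t : ℝ) (x' : Fin n → ℝ) : Fin.tail (consP t x') = x' := rfl

/-- The continuous linear map `x' ↦ (0, x')`. -/
noncomputable def consL : (Fin n → ℝ) →L[ℝ] (Fin (n + 1) → ℝ) :=
  ContinuousLinearMap.pi (Fin.cases 0 (fun j => ContinuousLinearMap.proj j))

@[simp] lemma consL_apply_zero (v : Fin n → ℝ) : consL v 0 = 0 := rfl

@[simp] lemma consL_apply_succ (v : Fin n → ℝ) (j : Fin n) : consL v j.succ = v j := rfl

lemma consP_eq (t : ℝ) (x' : Fin n → ℝ) : consP t x' = consL x' + Pi.single 0 t := by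
  ext i
  refine Fin.cases ?_ (fun j => ?_) i <;> simp

lemma hasFDerivAt_consP (t : ℝ) (x' : Fin n → ℝ) :
    HasFDerivAt (fun y : Fin n → ℝ => consP t y) (consL : (Fin n → ℝ) →L[ℝ] (Fin (n + 1) → ℝ)) x' := by
  have : (fun y : Fin n → ℝ => consP t y) = fun y => consL y + Pi.single 0 t := by
    funext y; exact consP_eq t y
  rw [this]
  exact (consL.hasFDerivAt).add_const _

lemma contDiff_consP (t : ℝ) : ContDiff ℝ 1 (fun y : Fin n → ℝ => consP t y) := by
  have : (fun y : Fin n → ℝ => consP t y) = fun y => consL y + Pi.single 0 t := by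
    funext y; exact consP_eq t y
  rw [this]
  exact (consL.contDiff).add contDiff_const

lemma continuous_consP_uncurry :
    Continuous (fun p : ℝ × (Fin n → ℝ) => consP p.1 p.2) := by
  refine continuous_pi (fun i => ?_)
  refine Fin.cases ?_ (fun j => ?_) i
  · exact continuous_fst
  · exact (continuous_apply j).comp continuous_snd

lemma consL_single (j : Fin n) :
    (consL (Pi.single j 1 : Fin n → ℝ) : Fin (n + 1) → ℝ) = Pi.single j.succ 1 := by
  ext i
  refine Fin.cases ?_ (fun k => ?_) i
  · simp
  · simp [Pi.single_apply, Fin.succ_inj]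

/-- The coordinate derivative of a slice is a coordinate derivative. -/
lemma pd_slice {g : (Fin (n + 1) → ℝ) → ℝ} (t : ℝ) (x' : Fin n → ℝ) (j : Fin n)
    (hg : DifferentiableAt ℝ g (consP t x')) :
    pd (fun y => g (consP t y)) j x' = pd g j.succ (consP t x') := by
  unfold pd
  have h := hg.hasFDerivAt.comp x' (hasFDerivAt_consP t x')
  have h2 : fderiv ℝ (fun y => g (consP t y)) x' = (fderiv ℝ g (consP t x')).comp consL := h.fderiv
  rw [h2]
  simp [consL_single]

/-- Fubini for the slicing `ℝ^(n+1) = ℝ × ℝⁿ`. -/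
lemma integral_eq_integral_slices {F : (Fin (n + 1) → ℝ) → ℝ} (hF : Integrable F) :
    ∫ x, F x = ∫ t, ∫ x', F (consP t x') := by
  have hmp := (volume_preserving_piFinSuccAbove (fun _ : Fin (n + 1) => ℝ) 0).symm
  have h1 : ∫ p : ℝ × (Fin n → ℝ), F (consP p.1 p.2) = ∫ x, F x := by
    have := hmp.integral_comp' (g := F)
    simpa [MeasurableEquiv.piFinSuccAbove_symm_apply, consP, Fin.insertNthEquiv,
      Fin.insertNth_zero'] using this
  have h2 : Integrable (fun p : ℝ × (Fin n → ℝ) => F (consP p.1 p.2)) := by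
    have := (hmp.integrable_comp_emb (MeasurableEquiv.measurableEmbedding _)).2 hF
    simpa [Function.comp_def, MeasurableEquiv.piFinSuccAbove_symm_apply, consP, Fin.insertNthEquiv,
      Fin.insertNth_zero'] using this
  rw [← h1, Measure.volume_eq_prod] at *
  exact integral_prod _ h2

/-- Slices of a compactly supported function. -/
lemma hasCompactSupport_slice {G : (Fin (n + 1) → ℝ) → ℝ} (hG : HasCompactSupport G) (t : ℝ) :
    HasCompactSupport (fun y => G (consP t y)) := by
  refine HasCompactSupport.intro (K := Fin.tail '' tsupport G) ?_ ?_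
  · refine IsCompact.image hG ?_
    exact continuous_pi (fun _ => continuous_apply _)
  · intro y hy
    by_contra h
    apply hy
    refine ⟨consP t y, subset_tsupport _ h, ?_⟩
    exact tail_consP t y

/-- The set of `x'` over which a function may have a nonzero value. -/
def tailSet (G : (Fin (n + 1) → ℝ) → ℝ) : Set (Fin n → ℝ) := Fin.tail '' tsupport G

lemma isCompact_tailSet {G : (Fin (n + 1) → ℝ) → ℝ} (hG : HasCompactSupport G) :
    IsCompact (tailSet G) :=
  IsCompact.image hG (continuous_pi (fun j => continuous_apply _))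

lemma eq_zero_of_not_mem_tailSet {G : (Fin (n + 1) → ℝ) → ℝ} {y : Fin n → ℝ}
    (hy : y ∉ tailSet G) (t : ℝ) : G (consP t y) = 0 := by
  by_contra h
  exact hy ⟨consP t y, subset_tsupport _ h, tail_consP t y⟩

/-- The integral over the slices is continuous. -/
lemma continuous_integral_slice {G : (Fin (n + 1) → ℝ) → ℝ} (hG : Continuous G)
    (hGc : HasCompactSupport G) : Continuous (fun t => ∫ y, G (consP t y)) := by
  have key : (fun t => ∫ y, G (consP t y)) = fun t => ∫ y in tailSet G, G (consP t y) := by
    funext t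
    refine (setIntegral_eq_integral_of_forall_compl_eq_zero ?_).symm
    intro y hy
    exact eq_zero_of_not_mem_tailSet hy t
  rw [key]
  refine continuous_parametric_integral_of_continuous ?_ (isCompact_tailSet hGc)
  exact hG.comp (continuous_consP_uncurry)

/-- The integral over the slices has compact support. -/
lemma hasCompactSupport_integral_slice {G : (Fin (n + 1) → ℝ) → ℝ} (hGc : HasCompactSupport G) :
    HasCompactSupport (fun t => ∫ y, G (consP t y)) := by
  refine HasCompactSupport.intro (K := (fun x : Fin (n + 1) → ℝ => x 0) '' tsupport G) ?_ ?_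
  · exact IsCompact.image hGc (continuous_apply 0)
  · intro t ht
    have : ∀ y, G (consP t y) = 0 := by
      intro y
      by_contra h
      exact ht ⟨consP t y, subset_tsupport _ h, rfl⟩
    simp [this]

lemma integrable_of_continuous_compact {k : ℕ} {G : (Fin k → ℝ) → ℝ} (hG : Continuous G)
    (hGc : HasCompactSupport G) : Integrable G :=
  hG.integrable_of_hasCompactSupport hGc

end Vale.Agent.Lib.P219
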