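import Vale.Agent.Lib.P219.Defs

/-! One dimensional monotone transport. -/

open MeasureTheory Set Filter Topology

namespace Vale.Agent.Lib.P219

/-- One dimensional monotone transport of the density `m` on the line to the density `w` on
`[y₁, y₂]`, with `C¹` transport map `u` such that `u' * w (u) = m`. -/
theorem exists_transport {w m : ℝ → ℝ} (hw : Continuous w) {c : ℝ} (hc : 0 < c)
    (hwc : ∀ v, c ≤ w v) (hm : Continuous m) (hm0 : ∀ t, 0 ≤ m t) (hmc : HasCompactSupport m)
    {y₁ y₂ : ℝ} (hmass : ∫ v in y₁..y₂, w v = ∫ t, m t) :
    ∃ u u' : ℝ → ℝ, (∀ t, HasDerivAt u (u' t) t) ∧ Continuous u' ∧ (∀ t, u' t * w (u t) = m t) ∧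
      (∀ t, 0 ≤ u' t) ∧ Monotone u ∧ (∀ t, y₁ ≤ u t ∧ u t ≤ y₂) ∧
      (∃ t₁ t₂, u t₁ = y₁ ∧ u t₂ = y₂) ∧
      (∀ H : ℝ → ℝ, Continuous H → ∫ t, H (u t) * m t = ∫ v in y₁..y₂, H v * w v) := by
  classical
  -- the cumulative distribution function of the target
  set W : ℝ → ℝ := fun v => ∫ s in y₁..v, w s with hWdef
  have hWderiv : ∀ v, HasDerivAt W (w v) v := fun v =>
    intervalIntegral.integral_hasDerivAt_right (hw.intervalIntegrable _ _)
      (hw.stronglyMeasurableAtFilter _ _) hw.continuousAt
  have hWcont : Continuous W := continuous_iff_continuousAt.2 fun v => (hWderiv v).continuousAt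
  have hWpos : ∀ v, 0 < w v := fun v => lt_of_lt_of_le hc (hwc v)
  have hWstrict : StrictMono W := strictMono_of_deriv_pos (fun v => by
    rw [(hWderiv v).deriv]; exact hWpos v)
  have hWy₁ : W y₁ = 0 := by simp [hWdef]
  -- lower bounds on `W`
  have hWge : ∀ v, y₁ ≤ v → c * (v - y₁) ≤ W v := by
    intro v hv
    have : ∫ s in y₁..v, c = c * (v - y₁) := by simp; ring
    rw [← this]
    exact intervalIntegral.integral_mono_on hv (continuous_const.intervalIntegrable _ _)
      (hw.intervalIntegrable _ _) (fun s _ => hwc s)
  have hWle : ∀ v, v ≤ y₁ → W v ≤ c * (v - y₁) := by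
    intro v hv
    have h1 : W v = - ∫ s in v..y₁, w s := by
      simp only [hWdef]; rw [intervalIntegral.integral_symm]
    have h2 : ∫ s in v..y₁, c = c * (y₁ - v) := by simp; ring
    have h3 : c * (y₁ - v) ≤ ∫ s in v..y₁, w s := by
      rw [← h2]
      exact intervalIntegral.integral_mono_on hv (continuous_const.intervalIntegrable _ _)
        (hw.intervalIntegrable _ _) (fun s _ => hwc s)
    rw [h1]; linarith
  have hWtop : Tendsto W atTop atTop := by
    refine tendsto_atTop_mono' _ ?_ (tendsto_atTop_add_const_right _ (-(c * y₁))
      (tendsto_id.const_mul_atTop hc))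
    filter_upwards [eventually_ge_atTop y₁] with v hv
    have := hWge v hv
    simp only [id]; linarith
  have hWbot : Tendsto W atBot atBot := by
    refine tendsto_atBot_mono' _ ?_ (tendsto_atBot_add_const_right _ (-(c * y₁))
      (tendsto_id.const_mul_atBot hc))
    filter_upwards [eventually_le_atBot y₁] with v hv
    have := hWle v hv
    simp only [id]; linarith
  have hWsurj : Function.Surjective W := hWcont.surjective hWtop hWbot
  -- the order isomorphism and its inverse
  let e : ℝ ≃o ℝ := hWstrict.orderIsoOfSurjective W hWsurj
  have he : ∀ v, e v = W v := fun v => rfl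
  have hesymm : ∀ s, W (e.symm s) = s := fun s => by
    rw [← he]; exact e.apply_symm_apply s
  have hescont : Continuous e.symm := e.symm.continuous
  have hderivinv : ∀ s, HasDerivAt e.symm (w (e.symm s))⁻¹ s := by
    intro s
    refine HasDerivAt.of_local_left_inverse hescont.continuousAt (hWderiv _) (hWpos _).ne' ?_
    exact Eventually.of_forall hesymm
  -- the cumulative distribution function of the source
  obtain ⟨L₀, hL₀⟩ := hmc.isCompact.isBounded.subset_closedBall (0 : ℝ)
  set L : ℝ := |L₀| + 1 with hL
  have hLpos : 0 < L := by positivity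
  have hmout : ∀ t, L ≤ |t| → m t = 0 := by
    intro t ht
    by_contra hne
    have h1 : t ∈ Metric.closedBall (0 : ℝ) L₀ := hL₀ (subset_tsupport _ hne)
    have h2 : |t| ≤ L₀ := by simpa [Real.norm_eq_abs] using h1
    have h3 := le_abs_self L₀
    linarith
  set G : ℝ → ℝ := fun t => ∫ s in (-L)..t, m s with hGdef
  have hGderiv : ∀ t, HasDerivAt G (m t) t := fun t =>
    intervalIntegral.integral_hasDerivAt_right (hm.intervalIntegrable _ _)
      (hm.stronglyMeasurableAtFilter _ _) hm.continuousAt
  have hGL : G L = ∫ t, m t := by
    simp only [hGdef]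
    rw [intervalIntegral.integral_of_le (by linarith), ← integral_Icc_eq_integral_Ioc]
    refine setIntegral_eq_integral_of_forall_compl_eq_zero ?_
    intro t ht
    apply hmout
    by_contra hlt
    push Not at hlt
    exact ht ⟨by linarith [neg_abs_le t], by linarith [le_abs_self t]⟩
  have hGneg : G (-L) = 0 := by simp [hGdef]
  -- the transport map
  refine ⟨fun t => e.symm (G t), fun t => (w (e.symm (G t)))⁻¹ * m t, ?_, ?_, ?_, ?_, ?_, ?_, ?_, ?_⟩
  · intro t
    exact (hderivinv (G t)).comp t (hGderiv t)
  · refine (Continuous.inv₀ (hw.comp (hescont.comp ?_)) (fun t => (hWpos _).ne')).mul hm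
    exact continuous_iff_continuousAt.2 fun t => (hGderiv t).continuousAt
  · intro t
    have := (hWpos (e.symm (G t))).ne'
    field_simp
  · intro t
    exact mul_nonneg (inv_nonneg.2 (hWpos _).le) (hm0 t)
  · have hmono : Monotone (fun t => e.symm (G t)) := by
      refine monotone_of_deriv_nonneg ?_ ?_
      · exact fun t => ((hderivinv (G t)).comp t (hGderiv t)).differentiableAt
      · intro t
        have hd : HasDerivAt (fun t => e.symm (G t)) ((w (e.symm (G t)))⁻¹ * m t) t :=
          (hderivinv (G t)).comp t (hGderiv t)
        rw [hd.deriv]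
        exact mul_nonneg (inv_nonneg.2 (hWpos _).le) (hm0 t)
    exact hmono
  · -- range
    have hmono : Monotone G := by
      refine monotone_of_deriv_nonneg (fun t => (hGderiv t).differentiableAt) ?_
      intro t; rw [(hGderiv t).deriv]; exact hm0 t
    intro t
    have hG1 : 0 ≤ G t := by
      by_cases ht : -L ≤ t
      · rw [← hGneg]; exact hmono ht
      · push Not at ht
        have : G t = 0 := by
          simp only [hGdef]
          rw [intervalIntegral.integral_symm]
          have h0 : ∫ s in t..(-L), m s = 0 := by
            rw [intervalIntegral.integral_of_le ht.le]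
            refine setIntegral_eq_zero_of_forall_eq_zero ?_
            intro s hs
            apply hmout
            have : s ≤ -L := hs.2
            rw [abs_of_nonpos (by linarith)]
            linarith
          rw [h0]; simp
        rw [this]
    have hG2 : G t ≤ ∫ t, m t := by
      by_cases ht : t ≤ L
      · rw [← hGL]; exact hmono ht
      · push Not at ht
        have : G t = G L := by
          simp only [hGdef]
          rw [← intervalIntegral.integral_add_adjacent_intervals (b := L)
            (hm.intervalIntegrable _ _) (hm.intervalIntegrable _ _)]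
          have h0 : ∫ s in L..t, m s = 0 := by
            rw [intervalIntegral.integral_of_le ht.le]
            refine setIntegral_eq_zero_of_forall_eq_zero ?_
            intro s hs
            apply hmout
            have : L < s := hs.1
            rw [abs_of_nonneg (by linarith)]
            linarith
          rw [h0]; simp
        rw [this, hGL]
    constructor
    · have : e y₁ ≤ G t := by rw [he, hWy₁]; exact hG1
      have h := e.symm.monotone this
      simpa using h
    · have : G t ≤ e y₂ := by rw [he]; simp only [hWdef]; rw [hmass]; exact hG2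
      have h := e.symm.monotone this
      simpa using h
  · refine ⟨-L, L, ?_, ?_⟩
    · have : e y₁ = G (-L) := by rw [he, hWy₁, hGneg]
      show e.symm (G (-L)) = y₁
      rw [← this]; simp
    · have : e y₂ = G L := by rw [he, hGL]; simp only [hWdef]; rw [hmass]
      show e.symm (G L) = y₂
      rw [← this]; simp
  · intro H hH
    have hu1 : e.symm (G (-L)) = y₁ := by
      have : e y₁ = G (-L) := by rw [he, hWy₁, hGneg]
      rw [← this]; simp
    have hu2 : e.symm (G L) = y₂ := by
      have : e y₂ = G L := by rw [he, hGL]; simp only [hWdef]; rw [hmass]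
      rw [← this]; simp
    have hcv := intervalIntegral.integral_comp_mul_deriv (a := -L) (b := L)
      (f := fun t => e.symm (G t)) (f' := fun t => (w (e.symm (G t)))⁻¹ * m t)
      (g := fun v => H v * w v)
      (fun t _ => (hderivinv (G t)).comp t (hGderiv t))
      (by
        refine Continuous.continuousOn ?_
        refine (Continuous.inv₀ (hw.comp (hescont.comp ?_)) (fun t => (hWpos _).ne')).mul hm
        exact continuous_iff_continuousAt.2 fun t => (hGderiv t).continuousAt)
      (hH.mul hw)
    simp only [hu1, hu2] at hcv
    rw [← hcv]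
    rw [intervalIntegral.integral_of_le (by linarith), ← integral_Icc_eq_integral_Ioc,
      ← setIntegral_eq_integral_of_forall_compl_eq_zero (s := Icc (-L) L)]
    · refine setIntegral_congr_fun measurableSet_Icc ?_
      intro t _
      have := (hWpos (e.symm (G t))).ne'
      simp only [Function.comp]
      field_simp
    · intro t ht
      have : m t = 0 := by
        apply hmout
        by_contra hlt
        push Not at hlt
        exact ht ⟨by linarith [neg_abs_le t], by linarith [le_abs_self t]⟩
      simp [this]

end Vale.Agent.Lib.P219
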