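import Vale.Agent.Lib.P219.ByParts
import Vale.Agent.Lib.P219.Transport

/-! The inductive transport step. -/

open MeasureTheory Set

namespace Vale.Agent.Lib.P219

variable {n : ℕ}

/-- The density on `(-1, 1)` which the slices of a model ball induce. -/
noncomputable def weight (n : ℕ) (σ b v : ℝ) : ℝ :=
  omega n * (1 - v ^ 2) ^ ((n : ℝ) / 2) / (σ - b * v) ^ (n + 1)

/-- The inequality that is proved by induction on the dimension. -/
def JForm (n : ℕ) : Prop :=
  ∀ a : Fin n → Fin n → (Fin n → ℝ) → ℝ, IsMonotoneFrame a → ∀ g : (Fin n → ℝ) → ℝ,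
    ContDiff ℝ 1 g → HasCompactSupport g → (∀ x, 0 ≤ g x) →
    (n : ℝ) * omega n ^ (1 / (n : ℝ)) * (∫ x, g x) ^ (-(1 / (n : ℝ))) *
      ∫ x, g x * g x ^ (1 / (n : ℝ)) ≤ ∫ x, gradNorm a g x

lemma omega_pos (n : ℕ) : 0 < omega n := by
  unfold omega
  refine ENNReal.toReal_pos ?_ ?_
  · exact (Metric.measure_ball_pos _ _ one_pos).ne'
  · exact measure_ball_lt_top.ne

theorem step (hn : 1 ≤ n) (J : JForm n)
    {a : Fin (n + 1) → Fin (n + 1) → (Fin (n + 1) → ℝ) → ℝ} (ha : IsMonotoneFrame a)
    {g : (Fin (n + 1) → ℝ) → ℝ} (hg : ContDiff ℝ 1 g) (hgc : HasCompactSupport g)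
    (hg0 : ∀ x, 0 ≤ g x) {σ b y : ℝ} (hb : 0 ≤ b) (hσ : b < σ) (hy0 : 0 < y) (hy1 : y < 1)
    (hmass : ∫ v in (-y)..y, weight n σ b v = ∫ x, g x) :
    ∃ u : ℝ → ℝ, Monotone u ∧ Continuous u ∧ (∀ t, -y ≤ u t ∧ u t ≤ y) ∧ (∃ t₀, u t₀ = 0) ∧
      (∀ H : ℝ → ℝ, Continuous H →
        ∫ x, H (u (x 0)) * g x = ∫ v in (-y)..y, H v * weight n σ b v) ∧
      ∫ x, g x * (((n : ℝ) + 1) * (σ - b * u (x 0)) * g x ^ (1 / ((n : ℝ) + 1)) +
        fieldDiv a 0 x * u (x 0)) ≤ ∫ x, gradNorm a g x := by
  classical
  have hgcont : Continuous g := hg.continuous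
  have hgint : Integrable g := hgcont.integrable_of_hasCompactSupport hgc
  have hω := omega_pos n
  -- the clamp
  set cl : ℝ → ℝ := fun v => max (-y) (min v y) with hcldef
  have hcl : ∀ v, -y ≤ cl v ∧ cl v ≤ y := by
    intro v
    refine ⟨le_max_left _ _, max_le (by linarith) (min_le_right _ _)⟩
  have hclc : Continuous cl := continuous_const.max (continuous_id.min continuous_const)
  have hclid : ∀ v, -y ≤ v → v ≤ y → cl v = v := by
    intro v h1 h2
    simp [hcldef, h1, h2]
  have hSpos : ∀ v, -y ≤ v → v ≤ y → 0 < σ - b * v := by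
    intro v _ h2
    have : b * v ≤ b * 1 := mul_le_mul_of_nonneg_left (by linarith) hb
    linarith
  have hsq : ∀ v, -y ≤ v → v ≤ y → v ^ 2 ≤ y ^ 2 := by
    intro v h1 h2
    nlinarith
  have hy2 : y ^ 2 < 1 := by nlinarith
  have hRpos : ∀ v, -y ≤ v → v ≤ y → 0 < 1 - v ^ 2 := by
    intro v h1 h2
    have := hsq v h1 h2
    linarith
  set wc : ℝ → ℝ := fun v => weight n σ b (cl v) with hwcdef
  have hwcc : Continuous wc := by
    simp only [hwcdef, weight]
    refine Continuous.div ?_ ?_ ?_
    · refine continuous_const.mul ?_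
      refine Continuous.rpow_const (continuous_const.sub (hclc.pow 2)) ?_
      intro v; right; positivity
    · exact (continuous_const.sub (continuous_const.mul hclc)).pow _
    · intro v
      exact pow_ne_zero _ (hSpos _ (hcl v).1 (hcl v).2).ne'
  -- lower bound of the clamped density
  set c0 : ℝ := omega n * (1 - y ^ 2) ^ ((n : ℝ) / 2) / (σ + b) ^ (n + 1) with hc0
  have hσpos : 0 < σ := lt_of_le_of_lt hb hσ
  have hc0pos : 0 < c0 := by
    have : 0 < 1 - y ^ 2 := by linarith
    positivity
  have hwcle : ∀ v, c0 ≤ wc v := by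
    intro v
    obtain ⟨h1, h2⟩ := hcl v
    have hS := hSpos _ h1 h2
    have hR := hRpos _ h1 h2
    simp only [hwcdef, weight, hc0]
    refine div_le_div₀ ?_ ?_ (pow_pos hS _) ?_
    · positivity
    · refine mul_le_mul_of_nonneg_left ?_ hω.le
      refine Real.rpow_le_rpow ?_ ?_ (by positivity)
      · linarith
      · have := hsq _ h1 h2
        linarith
    · refine pow_le_pow_left₀ hS.le ?_ _
      have : -(b * 1) ≤ b * cl v := by
        have : b * (-1) ≤ b * cl v := mul_le_mul_of_nonneg_left (by linarith) hb
        linarith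
      linarith
  -- slices
  set m : ℝ → ℝ := fun t => ∫ z, g (consP t z) with hmdef
  have hmc : Continuous m := continuous_integral_slice hgcont hgc
  have hmcs : HasCompactSupport m := hasCompactSupport_integral_slice hgc
  have hm0 : ∀ t, 0 ≤ m t := fun t => integral_nonneg (fun z => hg0 _)
  have hmtotal : ∫ t, m t = ∫ x, g x := (integral_eq_integral_slices hgint).symm
  have hmass' : ∫ v in (-y)..y, wc v = ∫ t, m t := by
    rw [hmtotal, ← hmass]
    refine intervalIntegral.integral_congr ?_
    intro v hv
    rw [uIcc_of_le (by linarith)] at hv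
    simp only [hwcdef]
    rw [hclid v hv.1 hv.2]
  obtain ⟨u, u', hu, hu'c, huw, hu'0, humono, hurange, ⟨t₁, t₂, ht₁, ht₂⟩, hcv⟩ :=
    exists_transport hwcc hc0pos hwcle hmc hm0 hmcs hmass'
  have hucont : Continuous u := continuous_iff_continuousAt.2 fun t => (hu t).continuousAt
  have hu0 : Continuous (fun x : Fin (n + 1) → ℝ => u (x 0)) := hucont.comp (continuous_apply 0)
  have hu'0c : Continuous (fun x : Fin (n + 1) → ℝ => u' (x 0)) := hu'c.comp (continuous_apply 0)
  -- the complementary component
  set R : ℝ → ℝ := fun t => Real.sqrt (1 - u t ^ 2) with hRdef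
  have hRcont : Continuous R := (continuous_const.sub (hucont.pow 2)).sqrt
  have hR0c : Continuous (fun x : Fin (n + 1) → ℝ => R (x 0)) := hRcont.comp (continuous_apply 0)
  have hRp : ∀ t, 0 < R t := fun t =>
    Real.sqrt_pos.2 (hRpos _ (hurange t).1 (hurange t).2)
  have hRsq : ∀ t, u t ^ 2 + R t ^ 2 = 1 := by
    intro t
    simp only [hRdef]
    rw [Real.sq_sqrt (hRpos _ (hurange t).1 (hurange t).2).le]
    ring
  -- the formula for the derivative
  have hRn : ∀ t, R t ^ n = (1 - u t ^ 2) ^ ((n : ℝ) / 2) := by
    intro t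
    simp only [hRdef]
    rw [Real.sqrt_eq_rpow, ← Real.rpow_natCast, ← Real.rpow_mul (hRpos _ (hurange t).1 (hurange t).2).le]
    congr 1
    ring
  have hu'formula : ∀ t, u' t = m t * (σ - b * u t) ^ (n + 1) / (omega n * R t ^ n) := by
    intro t
    have h1 := huw t
    have h2 : wc (u t) = omega n * R t ^ n / (σ - b * u t) ^ (n + 1) := by
      simp only [hwcdef]
      rw [hclid _ (hurange t).1 (hurange t).2]
      simp only [weight]
      rw [hRn]
    rw [h2] at h1
    have hS := hSpos _ (hurange t).1 (hurange t).2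
    have hR := hRp t
    rw [← h1]
    field_simp
  set c := fieldDiv a 0 with hcdef
  have hcc : Continuous c := continuous_fieldDiv ha 0
  set T := tangNorm a g with hTdef
  have hTc : Continuous T := continuous_tangNorm ha hg
  have hTcs : HasCompactSupport T := hasCompactSupport_tangNorm hgc
  have hT0 : ∀ x, 0 ≤ T x := fun x => Real.sqrt_nonneg _
  -- the two integrands
  set K : (Fin (n + 1) → ℝ) → ℝ := fun x => g x * (u' (x 0) + u (x 0) * c x) + R (x 0) * T x with hKdef
  set Z : (Fin (n + 1) → ℝ) → ℝ := fun x => g x * (((n : ℝ) + 1) * (σ - b * u (x 0)) *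
    g x ^ (1 / ((n : ℝ) + 1)) + c x * u (x 0)) with hZdef
  have hKc : Continuous K :=
    (hgcont.mul (hu'0c.add (hu0.mul hcc))).add (hR0c.mul hTc)
  have hKcs : HasCompactSupport K := by
    refine HasCompactSupport.intro hgc (fun x hx => ?_)
    have h1 : g x = 0 := image_eq_zero_of_notMem_tsupport hx
    have h2 : T x = 0 := by
      have : x ∉ tsupport g := hx
      simp only [hTdef, tangNorm]
      have h3 : ∑ i : Fin n, fieldDeriv a i.succ g x ^ 2 = 0 :=
        Finset.sum_eq_zero (fun i _ => by rw [fieldDeriv_eq_zero_of_notMem this]; simp)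
      rw [h3]; simp
    simp [hKdef, h1, h2]
  have hpow : Continuous (fun x => g x ^ (1 / ((n : ℝ) + 1))) :=
    hgcont.rpow_const (fun x => Or.inr (by positivity))
  have hZc : Continuous Z := by
    refine hgcont.mul (Continuous.add ?_ (hcc.mul hu0))
    exact (continuous_const.mul (continuous_const.sub (continuous_const.mul hu0))).mul hpow
  have hZcs : HasCompactSupport Z := hgc.mul_right
  have hKint : Integrable K := hKc.integrable_of_hasCompactSupport hKcs
  have hZint : Integrable Z := hZc.integrable_of_hasCompactSupport hZcs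
  -- integration by parts
  have hparts := integral_first_field ha hg hgc hu hu'c
  have hgradint : Integrable (gradNorm a g) :=
    (continuous_gradNorm ha hg).integrable_of_hasCompactSupport (hasCompactSupport_gradNorm hgc)
  have hfirstc : Continuous (fun x : Fin (n + 1) → ℝ => u (x 0) * fieldDeriv a 0 g x) :=
    hu0.mul (continuous_fieldDeriv ha hg 0)
  have hfirstcs : HasCompactSupport (fun x : Fin (n + 1) → ℝ => u (x 0) * fieldDeriv a 0 g x) :=
    (hasCompactSupport_fieldDeriv hgc 0).mul_left
  have hfirstint : Integrable (fun x : Fin (n + 1) → ℝ => u (x 0) * fieldDeriv a 0 g x) :=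
    hfirstc.integrable_of_hasCompactSupport hfirstcs
  have hsecondint : Integrable (fun x : Fin (n + 1) → ℝ => R (x 0) * T x) :=
    (hR0c.mul hTc).integrable_of_hasCompactSupport hTcs.mul_left
  have hthirdint : Integrable (fun x : Fin (n + 1) → ℝ => g x * (u' (x 0) + u (x 0) * c x)) :=
    (hgcont.mul (hu'0c.add (hu0.mul hcc))).integrable_of_hasCompactSupport hgc.mul_right
  have hKeq : ∫ x, K x = ∫ x, (-(u (x 0) * fieldDeriv a 0 g x) + R (x 0) * T x) := by
    simp only [hKdef]
    have hneg : Integrable (fun x : Fin (n + 1) → ℝ => -(u (x 0) * fieldDeriv a 0 g x)) :=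
      hfirstint.neg
    rw [integral_add hthirdint hsecondint, integral_add hneg hsecondint, integral_neg,
      hparts]
    ring
  have hKle : ∫ x, K x ≤ ∫ x, gradNorm a g x := by
    rw [hKeq]
    refine integral_mono (hfirstint.neg.add hsecondint) hgradint ?_
    intro x
    have := gradNorm_ge a g x (u := u (x 0)) (R := R (x 0)) (hRsq _)
    simp only []
    linarith
  -- the slice inequality
  have hslice : ∀ t, ∫ z, Z (consP t z) ≤ ∫ z, K (consP t z) := by
    intro t
    by_cases hmt : m t = 0
    · -- the slice vanishes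
      have hzero : ∀ z, g (consP t z) = 0 := by
        intro z
        by_contra hne
        have hpos := Continuous.integral_pos_of_hasCompactSupport_nonneg_nonzero
          (μ := (volume : Measure (Fin n → ℝ)))
          (hgcont.comp (contDiff_consP t).continuous) (hasCompactSupport_slice hgc t)
          (fun z => hg0 _) hne
        have : 0 < m t := hpos
        linarith
      have h1 : ∀ z, Z (consP t z) = 0 := fun z => by simp [hZdef, hzero z]
      have h2 : ∀ z, 0 ≤ K (consP t z) := by
        intro z
        simp only [hKdef, hzero z, zero_mul, zero_add]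
        exact mul_nonneg (hRp _).le (hT0 _)
      simp only [h1, integral_zero]
      exact integral_nonneg h2
    · have hmpos : 0 < m t := lt_of_le_of_ne (hm0 t) (Ne.symm hmt)
      set gt : (Fin n → ℝ) → ℝ := fun z => g (consP t z) with hgtdef
      have hgtc : Continuous gt := hgcont.comp (contDiff_consP t).continuous
      have hgtcs : HasCompactSupport gt := hasCompactSupport_slice hgc t
      have hgt0 : ∀ z, 0 ≤ gt z := fun z => hg0 _
      have hJ := J (sliceFrame a t) (isMonotoneFrame_slice ha t) gt (hg.comp (contDiff_consP t))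
        hgtcs hgt0
      have hgradeq : ∫ z, gradNorm (sliceFrame a t) gt z = ∫ z, T (consP t z) := by
        refine integral_congr_ae (Filter.Eventually.of_forall fun z => ?_)
        exact gradNorm_slice ha (hg.differentiable (by norm_num)) t z
      rw [hgradeq] at hJ
      have hmeq : ∫ z, gt z = m t := rfl
      rw [hmeq] at hJ
      set Tt : (Fin n → ℝ) → ℝ := fun z => T (consP t z) with hTtdef
      have hTtc : Continuous Tt := hTc.comp (contDiff_consP t).continuous
      have hTtcs : HasCompactSupport Tt := hasCompactSupport_slice hTcs t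
      set Ct : (Fin n → ℝ) → ℝ := fun z => c (consP t z) with hCtdef
      have hCtc : Continuous Ct := hcc.comp (contDiff_consP t).continuous
      have hnpos : (0 : ℝ) < n := by exact_mod_cast hn
      have hpow1 : Continuous (fun z => gt z ^ (1 / (n : ℝ))) :=
        hgtc.rpow_const (fun x => Or.inr (by positivity))
      have hpow2 : Continuous (fun z => gt z ^ (1 / ((n : ℝ) + 1))) :=
        hgtc.rpow_const (fun x => Or.inr (by positivity))
      have hint1 : Integrable (fun z => gt z * (u' t + u t * Ct z)) :=
        (hgtc.mul (continuous_const.add (continuous_const.mul hCtc))).integrable_of_hasCompactSupport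
          hgtcs.mul_right
      have hint2 : Integrable Tt := hTtc.integrable_of_hasCompactSupport hTtcs
      have hint3 : Integrable (fun z => gt z * gt z ^ (1 / (n : ℝ))) :=
        (hgtc.mul hpow1).integrable_of_hasCompactSupport hgtcs.mul_right
      have hKsplit : ∫ z, K (consP t z) =
          (∫ z, gt z * (u' t + u t * Ct z)) + R t * ∫ z, Tt z := by
        simp only [hKdef, consP_zero]
        rw [integral_add hint1 (hint2.const_mul _), integral_const_mul]
      rw [hKsplit]
      -- use the induction hypothesis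
      set P : ℝ := (n : ℝ) * omega n ^ (1 / (n : ℝ)) * (m t) ^ (-(1 / (n : ℝ))) with hPdef
      have hPpos : 0 ≤ P := by positivity
      have hstep1 : R t * (P * ∫ z, gt z * gt z ^ (1 / (n : ℝ))) ≤ R t * ∫ z, Tt z :=
        mul_le_mul_of_nonneg_left hJ (hRp t).le
      have hint4 : Integrable (fun z => R t * (P * (gt z * gt z ^ (1 / (n : ℝ))))) :=
        (hint3.const_mul _).const_mul _
      have hrewrite : R t * (P * ∫ z, gt z * gt z ^ (1 / (n : ℝ))) =
          ∫ z, R t * (P * (gt z * gt z ^ (1 / (n : ℝ)))) := by
        rw [integral_const_mul, integral_const_mul]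
      rw [hrewrite] at hstep1
      have hZt : Integrable (fun z => Z (consP t z)) :=
        (hZc.comp (contDiff_consP t).continuous).integrable_of_hasCompactSupport
          (hasCompactSupport_slice hZcs t)
      have hmain : ∫ z, Z (consP t z) ≤
          ∫ z, (gt z * (u' t + u t * Ct z) + R t * (P * (gt z * gt z ^ (1 / (n : ℝ))))) := by
        refine integral_mono hZt (hint1.add hint4) ?_
        intro z
        have hw0 : 0 ≤ gt z := hgt0 z
        have hS := hSpos _ (hurange t).1 (hurange t).2
        have hpt := pointwise_ineq (k := n) hn (m := m t) (ω := omega n) (R := R t)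
          (S := σ - b * u t) (w := gt z) hmpos hω (hRp t) hS hw0
        rw [← hu'formula t] at hpt
        have hmul := mul_le_mul_of_nonneg_left hpt hw0
        simp only [hZdef, consP_zero]
        have heq : R t * (P * (gt z * gt z ^ (1 / (n : ℝ)))) =
            gt z * ((n : ℝ) * (R t * omega n ^ (1 / (n : ℝ)) * m t ^ (-(1 / (n : ℝ))) *
              gt z ^ (1 / (n : ℝ)))) := by
          rw [hPdef]; ring
        rw [heq]
        show g (consP t z) * _ ≤ _
        show gt z * _ ≤ _
        nlinarith [hmul]
      rw [integral_add hint1 hint4] at hmain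
      linarith
  -- conclude
  refine ⟨u, humono, hucont, ?_, ?_, ?_, ?_⟩
  · exact hurange
  · -- intermediate value theorem
    have h1 : u t₁ ≤ 0 := by rw [ht₁]; linarith
    have h2 : 0 ≤ u t₂ := by rw [ht₂]; linarith
    have := intermediate_value_univ t₁ t₂ hucont
    obtain ⟨t₀, ht₀⟩ := this ⟨h1, h2⟩
    exact ⟨t₀, ht₀⟩
  · intro H hH
    have hint : Integrable (fun x : Fin (n + 1) → ℝ => H (u (x 0)) * g x) :=
      ((hH.comp hu0).mul hgcont).integrable_of_hasCompactSupport hgc.mul_left
    rw [integral_eq_integral_slices hint]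
    have h1 : ∀ t, ∫ z, H (u (consP t z 0)) * g (consP t z) = H (u t) * m t := by
      intro t
      simp only [consP_zero]
      rw [integral_const_mul]
    simp only [h1]
    rw [hcv H hH]
    refine intervalIntegral.integral_congr ?_
    intro v hv
    rw [uIcc_of_le (by linarith)] at hv
    simp only [hwcdef]
    rw [hclid v hv.1 hv.2]
  · calc ∫ x, Z x = ∫ t, ∫ z, Z (consP t z) := integral_eq_integral_slices hZint
      _ ≤ ∫ t, ∫ z, K (consP t z) := by
          refine integral_mono ?_ ?_ hslice
          · exact (continuous_integral_slice hZc hZcs).integrable_of_hasCompactSupport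
              (hasCompactSupport_integral_slice hZcs)
          · exact (continuous_integral_slice hKc hKcs).integrable_of_hasCompactSupport
              (hasCompactSupport_integral_slice hKcs)
      _ = ∫ x, K x := (integral_eq_integral_slices hKint).symm
      _ ≤ ∫ x, gradNorm a g x := hKle

end Vale.Agent.Lib.P219
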